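import Vale.Agent.P240.R2.H986.X.Hua
import Vale.Agent.P240.R2.H997.ParFix
import Vale.Agent.P240.R2.H684.X3

/-!
Automorphisms that stabilize `B` and the opposite subgroup.
-/

set_option autoImplicit false

namespace Vale.Agent.P240.R2.H986.X

open Subgroup Vale.Agent.P240.K Vale.Agent.P240.H195

universe u

section
variable {ι : Type*} {F : Type*} [Field F] {L : Type u} [Group L] {C : RC ι} {x : ι → F → L}

namespace CS

variable (h : CS C x)
include h

section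
variable [Finite L] {r : ℕ} (hr : r.Prime) (hb : SB r (BB C x) (NN C x) (UU C x) (SS C x))
  (hp : IsPGroup r (UM C x))
include hr hb hp

/-- the opposite root subgroups are permuted -/
lemma neg_index {e : MulAut L} (heU : ∀ y ∈ UM C x, e y ∈ UM C x) {i k : ι} (hi : C.simp i)
    (hk : C.simp k)
    (heP : am e (Par (BB C x) (nn C.neg x i 1)) = Par (BB C x) (nn C.neg x k 1)) (t : F) :
    ∃ t', e (x (C.neg i) t) = x (C.neg k) t' := by
  obtain ⟨l, hls, hl⟩ := C.long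
  have h1 : e (x (C.neg i) t) ∈ Par (BB C x) (nn C.neg x k 1) := by
    rw [← heP]
    exact apply_mem_am (h.x_par hi t)
  have h2 : e (x (C.neg i) t) ∈ UM C x := heU _ (x_mem_UM (by
    have := C.simp_pos i hi
    rw [C.ht_neg]
    omega) t)
  exact h.root_eq hl hr hb hp hls hk h1 h2

end

/-- different indices commute -/
lemma mixed {i k : ι} (hi : C.simp i) (hk : C.simp k) (hne : i ≠ k) (t u : F) :
    x (C.neg i) t * x k u = x k u * x (C.neg i) t := by
  have hip := C.simp_pos i hi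
  have hkp := C.simp_pos k hk
  have h1 := h.comm (C.neg i) k (fun e => by
    have := C.ht_neg i
    rw [e] at this
    omega) (fun e => hne (by rw [← C.neg_neg i, e, C.neg_neg])) t u
  have h2 : gr x (C.cone (C.neg i) k) = ⊥ := by
    rw [gr, closure_eq_bot_iff]
    rintro _ ⟨j, w, hj, rfl⟩
    exact absurd hj (C.cone_mixed i k j hi hk hne)
  rw [h2, mem_bot] at h1
  have e1 : x (C.neg i) t * x k u = (x (C.neg i) t * x k u * (x (C.neg i) t)⁻¹ * (x k u)⁻¹) *
      (x k u * x (C.neg i) t) := by group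
  rw [e1, h1, one_mul]

variable [Finite L] [Finite F] {r : ℕ} (hr : r.Prime)
  (hb : SB r (BB C x) (NN C x) (UU C x) (SS C x))
  (hb' : SB r (BB C.opp x) (NN C.opp x) (UU C.opp x) (SS C.opp x))
  (hp : IsPGroup r (UM C x)) (hp' : IsPGroup r (UU C x))
include hr hb hb' hp hp'

/-- **the action on the root elements**, for automorphisms that permute the parabolic subgroups -/
theorem act_index {e : MulAut L} (heB : am e (BB C x) = BB C x)
    (heO : am e (BB C.opp x) = BB C.opp x) {i k : ι} (hi : C.simp i) (hk : C.simp k)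
    (heP : am e (Par (BB C x) (nn C.neg x i 1)) = Par (BB C x) (nn C.neg x k 1)) :
    ∃ (σ : F ≃+* F) (c : F), c ≠ 0 ∧ ∀ t, e (x i t) = x k (c * σ t) ∧
      e (x (C.neg i) t) = x (C.neg k) (c⁻¹ * σ t) := by
  have heU : ∀ y ∈ UU C x, e y ∈ UU C x := fun y hy => hb.apply_U hr heB hy
  have heM : ∀ y ∈ UM C x, e y ∈ UM C x := fun y hy => by
    rw [← UU_opp] at hy ⊢
    exact hb'.apply_U hr heO hy
  have h1 := h.neg_index hr hb hp heM hi hk heP
  -- the positive root subgroup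
  have hs : nn C.opp.neg x (C.neg i) 1 ∈ SS C.opp x := ⟨C.neg i, by
    show C.simp (C.neg (C.neg i))
    rw [C.neg_neg]; exact hi, rfl⟩
  obtain ⟨_, ⟨m, hm, rfl⟩, h2⟩ := hb'.am_par heO hs
  have hm' : C.simp (C.neg m) := hm
  have h3 : ∀ t, ∃ t', e (x i t) = x (C.neg m) t' := by
    intro t
    have h4 := h.opp'.neg_index (e := e) hr hb' (by rw [UM_opp]; exact hp')
      (fun y hy => by rw [UM_opp] at hy ⊢; exact heU y hy) (i := C.neg i) (k := m)
      (by show C.simp (C.neg (C.neg i)); rw [C.neg_neg]; exact hi) hm h2 t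
    obtain ⟨t', h5⟩ := h4
    refine ⟨t', ?_⟩
    change e (x (C.neg (C.neg i)) t) = x (C.neg m) t' at h5
    rwa [C.neg_neg] at h5
  have hkm : k = C.neg m := by
    by_contra hne
    have h5 : (1 : F) = 0 := by
      apply h.norm_zero (k := i)
      intro u
      obtain ⟨a, ha⟩ := h1 1
      obtain ⟨b, hb2⟩ := h3 u
      refine ⟨u, ?_⟩
      apply e.injective
      rw [map_mul, map_mul, map_inv, ha, hb2, h.mixed hk hm' hne]
      group
    exact one_ne_zero h5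
  rw [← hkm] at h3
  exact h.aut_pair h3 h1

/-- **X4a** -/
theorem x4a {e : MulAut L} (heB : am e (BB C x) = BB C x)
    (heO : am e (BB C.opp x) = BB C.opp x)
    (heP : ∀ s ∈ SS C x, am e (Par (BB C x) s) = Par (BB C x) s) :
    ∃ (σ : F ≃+* F) (c : ι → F), Al C x e σ c := by
  classical
  have h1 : ∀ i, C.simp i → ∃ (σ : F ≃+* F) (c : F), c ≠ 0 ∧ ∀ t, e (x i t) = x i (c * σ t) ∧
      e (x (C.neg i) t) = x (C.neg i) (c⁻¹ * σ t) := fun i hi =>
    h.act_index hr hb hb' hp hp' heB heO hi hi (heP _ ⟨i, hi, rfl⟩)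
  choose! σ c hc0 hc using h1
  obtain ⟨i₀, hi₀⟩ := C.ex
  have hrel : ∀ i j, C.simp i → C.simp j → ∀ t : F, t ≠ 0 → σ j t ^ C.pr j i = σ i t ^ C.pr j i :=
    fun i j hi hj t ht => h.torus_rel (hc0 i hi) (hc0 j hj) (hc i hi) (fun t => (hc j hj t).1) ht
  have hadj : ∀ i j, C.simp i → C.simp j → C.pr j i ≠ 0 → σ j = σ i := by
    intro i j hi hj hij
    by_cases hne : i = j
    · rw [hne]
    have key : ∀ a b, C.simp a → C.simp b → C.pr b a = -1 → σ b = σ a := by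
      intro a b ha hb1 hab
      ext t
      by_cases ht : t = 0
      · rw [ht, map_zero, map_zero]
      · have h2 := hrel a b ha hb1 t ht
        rw [hab, zpow_neg_one, zpow_neg_one] at h2
        exact inv_injective h2
    rcases (C.adj i j hi hj hne hij).2 with h2 | h2
    · exact key i j hi hj h2
    · exact (key j i hj hi h2).symm
  have hall : ∀ j, C.simp j → σ j = σ i₀ := C.conn (fun j => σ j = σ i₀) ⟨i₀, hi₀, rfl⟩
    (fun i j hi hj hpi hij => (hadj i j hi hj hij).trans hpi)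
  refine ⟨σ i₀, c, fun i hi => ⟨hc0 i hi, fun t => ?_⟩⟩
  rw [← hall i hi]
  exact hc i hi t

omit [Finite F] hb' hp hp' in
lemma s_inj {i j : ι} (hi : C.simp i) (hj : C.simp j)
    (hB : (nn C.neg x i 1)⁻¹ * nn C.neg x j 1 ∈ BB C x) : i = j := by
  by_contra hne
  have hN : (nn C.neg x i 1)⁻¹ * nn C.neg x j 1 ∈ NN C x :=
    mul_mem (inv_mem (h.SS_le _ ⟨i, hi, rfl⟩)) (h.SS_le _ ⟨j, hj, rfl⟩)
  have hT : (nn C.neg x i 1)⁻¹ * nn C.neg x j 1 ∈ TT C x := by
    rw [← h.inf_eq]; exact ⟨hB, hN⟩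
  obtain ⟨c, hc, h1⟩ := h.T_act hT j
  obtain ⟨d, hd, h2⟩ := h.nl_act [j] j
  have h3 := h2 1
  rw [wl_cons, wl_nil, C.s_self, nl_cons, nl_nil, mul_one, mul_one] at h3
  obtain ⟨f, hf, h4⟩ := h.nl_act [i] (C.s i (C.neg j))
  have h5 := h4 (f⁻¹ * d)
  rw [wl_cons, wl_nil, C.s_s, nl_cons, nl_nil, mul_one, mul_inv_cancel_left₀ hf] at h5
  have h6 := h1 1
  have e1 : (nn C.neg x i 1)⁻¹ * nn C.neg x j 1 * x j 1 *
      ((nn C.neg x i 1)⁻¹ * nn C.neg x j 1)⁻¹ = x (C.s i (C.neg j)) (f⁻¹ * d) := by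
    have e2 : (nn C.neg x i 1)⁻¹ * nn C.neg x j 1 * x j 1 *
        ((nn C.neg x i 1)⁻¹ * nn C.neg x j 1)⁻¹ =
        (nn C.neg x i 1)⁻¹ * (nn C.neg x j 1 * x j 1 * (nn C.neg x j 1)⁻¹) * nn C.neg x i 1 := by
      group
    rw [e2, h3, ← h5]
    group
  rw [e1, C.s_neg, mul_one] at h6
  have h7 := C.s_pos i j hi (C.simp_pos j hj) (Ne.symm hne)
  have h8 : x (C.neg (C.s i j)) (f⁻¹ * d) ∈ UU C x := by
    rw [h6]; exact x_mem_UU (C.simp_pos j hj) c
  have h9 := h.x_not_mem (by rw [C.ht_neg]; omega) h8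
  exact mul_ne_zero (inv_ne_zero hf) hd h9

omit [Finite F] hb' hp hp' in
lemma s_comm {i j : ι} (hi : C.simp i) (hj : C.simp j) (hne : i ≠ j) :
    (nn C.neg x j 1 * nn C.neg x i 1)⁻¹ * (nn C.neg x i 1 * nn C.neg x j 1) ∈ BB C x ↔
      C.pr j i = 0 := by
  constructor
  · intro hB
    by_contra hpr
    have hadj := (C.adj i j hi hj hne hpr).1
    have hiN := h.SS_le _ (⟨i, hi, rfl⟩ : nn C.neg x i 1 ∈ SS C x)
    have hjN := h.SS_le _ (⟨j, hj, rfl⟩ : nn C.neg x j 1 ∈ SS C x)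
    have hT : (nn C.neg x j 1 * nn C.neg x i 1)⁻¹ * (nn C.neg x i 1 * nn C.neg x j 1) ∈ TT C x := by
      rw [← h.inf_eq]
      exact Subgroup.mem_inf.2 ⟨hB, mul_mem (inv_mem (mul_mem hjN hiN)) (mul_mem hiN hjN)⟩
    obtain ⟨c, hc, h1⟩ := h.T_act hT j
    obtain ⟨d, hd, h2⟩ := h.nl_act [i, j] j
    obtain ⟨f, hf, h3⟩ := h.nl_act [j, i] j
    have e1 : nl C x [i, j] = nn C.neg x i 1 * nn C.neg x j 1 := by
      rw [nl_cons, nl_cons, nl_nil, mul_one]
    have e2 : nl C x [j, i] = nn C.neg x j 1 * nn C.neg x i 1 := by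
      rw [nl_cons, nl_cons, nl_nil, mul_one]
    have e3 : wl C [i, j] j = C.neg (C.s i j) := by
      rw [wl_cons, wl_cons, wl_nil, C.s_self, C.s_neg]
    have e4 : wl C [j, i] j = C.s j (C.s i j) := rfl
    have h4 := h2 1
    have h5 := h3 c
    rw [e1, e3, mul_one] at h4
    rw [e2, e4] at h5
    have h6 := h1 1
    rw [mul_one] at h6
    have h7 : x (C.neg (C.s i j)) d = x (C.s j (C.s i j)) (f * c) := by
      rw [← h4, ← h5, ← h6]
      group
    have h8 := C.s_pos i j hi (C.simp_pos j hj) (Ne.symm hne)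
    have h9 := C.s_pos j (C.s i j) hj h8 hadj
    have h10 : x (C.neg (C.s i j)) d ∈ UU C x := by rw [h7]; exact x_mem_UU h9 _
    exact hd (h.x_not_mem (by rw [C.ht_neg]; omega) h10)
  · intro hpr
    obtain ⟨c, hc, h1⟩ := h.nn_conj' i j (one_ne_zero)
    have h2 := h1 1 one_ne_zero
    rw [C.s_fix i j hpr, mul_one] at h2
    have e1 : (nn C.neg x j 1 * nn C.neg x i 1)⁻¹ * (nn C.neg x i 1 * nn C.neg x j 1) =
        (nl C x [i])⁻¹ * ((nn C.neg x j 1)⁻¹ * nn C.neg x j c) * nl C x [i] := by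
      rw [← h2, nl_cons, nl_nil]
      group
    rw [e1]
    exact TT_le_BB (h.nl_inv_conj_T [i] (h.nn_inv_nn one_ne_zero hc))

/-- the permutation of the simple roots -/
theorem x4b' {e : MulAut L} (heB : am e (BB C x) = BB C x)
    (heO : am e (BB C.opp x) = BB C.opp x) :
    ∃ π : Equiv.Perm {i // C.simp i},
      (∀ i, am e (Par (BB C x) (nn C.neg x i.1 1)) = Par (BB C x) (nn C.neg x (π i).1 1)) ∧
      (∀ i j, C.pr i.1 j.1 = 0 ↔ C.pr (π i).1 (π j).1 = 0) ∧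
      (∀ n : ℕ, e ^ n = 1 → π ^ n = 1) ∧
      ∃ (σ : {i // C.simp i} → F ≃+* F) (c : {i // C.simp i} → F), ∀ i, c i ≠ 0 ∧
        ∀ t, e (x i.1 t) = x (π i).1 (c i * σ i t) ∧
          e (x (C.neg i.1) t) = x (C.neg (π i).1) ((c i)⁻¹ * σ i t) := by
  obtain ⟨π, h1, h2, -, h4⟩ := Vale.Agent.P240.R2.H997.par_perm hb
    (fun i : {i // C.simp i} => nn C.neg x i.1 1) (fun i => ⟨i.1, i.2, rfl⟩)
    (by
      rintro _ ⟨i, hi, rfl⟩
      exact ⟨⟨i, hi⟩, by rw [inv_mul_cancel]; exact one_mem _⟩)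
    (fun i j hij => Subtype.ext (h.s_inj hr hb i.2 j.2 hij)) heB
  have h5 : ∀ i : {i // C.simp i}, ∃ (σ : F ≃+* F) (c : F), c ≠ 0 ∧
      ∀ t, e (x i.1 t) = x (π i).1 (c * σ t) ∧
        e (x (C.neg i.1) t) = x (C.neg (π i).1) (c⁻¹ * σ t) := fun i =>
    h.act_index hr hb hb' hp hp' heB heO i.2 (π i).2 (h1 i)
  choose σ c hc0 hc using h5
  refine ⟨π, h1, fun i j => ?_, h4, σ, c, fun i => ⟨hc0 i, hc i⟩⟩
  by_cases hij : i = j
  · subst hij
    rw [C.pr_self, C.pr_self]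
  · have hij' : (i : ι) ≠ j := fun e1 => hij (Subtype.ext e1)
    have hij'' : (π i : ι) ≠ π j := fun e1 => hij (π.injective (Subtype.ext e1))
    rw [C.pr_zero j.1 i.1, C.pr_zero (π j).1 (π i).1, ← h.s_comm hr hb i.2 j.2 hij',
      ← h.s_comm hr hb (π i).2 (π j).2 hij'']
    exact h2 i j

/-- the Cartan integers are preserved -/
theorem x4b {q : ℕ} [Fact q.Prime] [CharP F q] {e : MulAut L} (heB : am e (BB C x) = BB C x)
    (heO : am e (BB C.opp x) = BB C.opp x) :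
    ∃ π : Equiv.Perm {i // C.simp i},
      (∀ i, am e (Par (BB C x) (nn C.neg x i.1 1)) = Par (BB C x) (nn C.neg x (π i).1 1)) ∧
      (∀ i j, C.pr i.1 j.1 = 0 ↔ C.pr (π i).1 (π j).1 = 0) ∧
      ((q = 2 ∨ q = 3) ∨ ∀ i j, C.pr i.1 j.1 = C.pr (π i).1 (π j).1) ∧
      ∀ n : ℕ, e ^ n = 1 → π ^ n = 1 := by
  obtain ⟨π, h1, h2, h3, σ, c, hc⟩ := h.x4b' hr hb hb' hp hp' heB heO
  refine ⟨π, h1, h2, ?_, h3⟩
  by_cases hq2 : q = 2
  · exact Or.inl (Or.inl hq2)
  by_cases hq3 : q = 3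
  · exact Or.inl (Or.inr hq3)
  right
  intro i j
  by_cases hij : i = j
  · subst hij
    rw [C.pr_self, C.pr_self]
  have hij' : (i : ι) ≠ j := fun e1 => hij (Subtype.ext e1)
  have hij'' : (π i : ι) ≠ π j := fun e1 => hij (π.injective (Subtype.ext e1))
  have hb1 := C.pr_bd j.1 i.1 j.2 i.2 (Ne.symm hij')
  have hb2 := C.pr_bd (π j).1 (π i).1 (π j).2 (π i).2 (Ne.symm hij'')
  have hqp : q.Prime := Fact.out
  have cast_ne : ∀ m : ℕ, 0 < m → m < 5 → (m : F) ≠ 0 := by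
    intro m hm hm5 e0
    rw [CharP.cast_eq_zero_iff F q] at e0
    have h5 := Nat.le_of_dvd hm e0
    have h6 := hqp.two_le
    have h7 : q = 4 := by omega
    rw [h7] at hqp
    exact absurd hqp (by norm_num)
  have h20 : (2 : F) ≠ 0 := by exact_mod_cast cast_ne 2 (by norm_num) (by norm_num)
  have h30 : (3 : F) ≠ 0 := by exact_mod_cast cast_ne 3 (by norm_num) (by norm_num)
  have hrel : ∀ t : F, t ≠ 0 → (σ j) t = t → (σ i) t = t →
      t ^ C.pr i.1 j.1 = t ^ C.pr (π i).1 (π j).1 := by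
    intro t ht hj hi
    have h5 := h.torus_rel (hc j).1 (hc i).1 (hc j).2 (fun t => ((hc i).2 t).1) ht
    rwa [hi, hj] at h5
  have r2 := hrel 2 h20 (map_ofNat _ 2) (map_ofNat _ 2)
  have r3 := hrel 3 h30 (map_ofNat _ 3) (map_ofNat _ 3)
  have d2 : (2 : F) ^ (C.pr i.1 j.1 - C.pr (π i).1 (π j).1) = 1 := by
    rw [zpow_sub₀ h20, r2, div_self (zpow_ne_zero _ h20)]
  have d3 : (3 : F) ^ (C.pr i.1 j.1 - C.pr (π i).1 (π j).1) = 1 := by
    rw [zpow_sub₀ h30, r3, div_self (zpow_ne_zero _ h30)]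
  -- the difference is at most three
  have hnat : ∀ m : ℕ, m ≤ 3 → (2 : F) ^ m = 1 → (3 : F) ^ m = 1 → m = 0 := by
    intro m hm e2 e3
    interval_cases m
    · rfl
    · exfalso
      have : (1 : F) = 0 := by linear_combination e2
      exact one_ne_zero this
    · exfalso
      have : (3 : F) = 0 := by linear_combination e2
      exact h30 this
    · exfalso
      have : (1 : F) = 0 := by linear_combination e3 * 3 - e2 * 11
      exact one_ne_zero this
  rcases le_total (C.pr (π i).1 (π j).1) (C.pr i.1 j.1) with hle | hle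
  · obtain ⟨m, hm⟩ := Int.eq_ofNat_of_zero_le (sub_nonneg.2 hle)
    rw [hm, zpow_natCast] at d2 d3
    have := hnat m (by omega) d2 d3
    omega
  · obtain ⟨m, hm⟩ := Int.eq_ofNat_of_zero_le (sub_nonneg.2 hle)
    have hm' : C.pr i.1 j.1 - C.pr (π i).1 (π j).1 = -(m : ℤ) := by omega
    rw [hm', zpow_neg, zpow_natCast] at d2 d3
    have := hnat m (by omega) (inv_eq_one.1 d2) (inv_eq_one.1 d3)
    omega

end CS

end

section
variable {ι : Type*} {F : Type*} [Field F] {L : Type u} [Group L] {C : RC ι} {x : ι → F → L}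

/-- the hypotheses -/
lemma CS.data [Finite ι] [Finite F] [Finite L] {r : ℕ} [Fact r.Prime] [CharP F r] (h : CS C x)
    (hc : ∀ g : L, (∀ y, g * y = y * g) → g = 1) :
    SB r (BB C x) (NN C x) (UU C x) (SS C x) ∧
      SB r (BB C.opp x) (NN C.opp x) (UU C.opp x) (SS C.opp x) ∧
      IsPGroup r (UM C x) ∧ IsPGroup r (UU C x) := by
  have h1 := (Vale.Agent.P240.R2.H684.XB.splitBN h hc r).toSB
  have h2 := (Vale.Agent.P240.R2.H684.XB.splitBN h.opp' hc r).toSB
  refine ⟨h1, h2, ?_, h1.pgroup⟩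
  have h3 := h2.pgroup
  rwa [UU_opp] at h3

end

theorem stmtX4a : StmtX4a.{u} := by
  intro ι _ F _ _ L _ _ r _ _ C x h _ hc l _ hl e heB heO heP
  obtain ⟨h1, h2, h3, h4⟩ := h.data (r := r) hc
  rw [h.cj_BB hl] at heO
  exact h.x4a Fact.out h1 h2 h3 h4 heB heO heP

theorem stmtX4b : StmtX4b.{u} := by
  intro ι _ F _ _ L _ _ r _ _ C x h _ hc l _ hl e heB heO
  obtain ⟨h1, h2, h3, h4⟩ := h.data (r := r) hc
  rw [h.cj_BB hl] at heO
  exact h.x4b Fact.out h1 h2 h3 h4 heB heO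

end Vale.Agent.P240.R2.H986.X
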