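import Vale.Agent.P240.R2.H986.X.NT
import Vale.Agent.P240.H195.BNGeo

/-!
Literal statements for the automorphisms of the groups given by Chevalley's relations.
-/

set_option autoImplicit false

namespace Vale.Agent.P240.R2.H986.X

open Subgroup Vale.Agent.P240.K Vale.Agent.P240.H195

universe u v w

section
variable {ι : Type*} {F : Type*} [Field F] {L : Type*} [Group L]

/-- the automorphism `e` acts on the root elements of the simple roots and their negatives by the
field automorphism `σ` and the scalars `c` -/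
def Al (C : RC ι) (x : ι → F → L) (e : MulAut L) (σ : F ≃+* F) (c : ι → F) : Prop :=
  ∀ i, C.simp i → c i ≠ 0 ∧ ∀ t : F, e (x i t) = x i (c i * σ t) ∧
    e (x (C.neg i) t) = x (C.neg i) ((c i)⁻¹ * σ t)

end

/-- **X4a**: automorphisms that stabilize `B`, the opposite subgroup and the minimal parabolic
subgroups over `B`. -/
def StmtX4a : Prop := ∀ (ι : Type) [Finite ι] (F : Type) [Field F] [Finite F] (L : Type u) [Group L]
  [Finite L] (r : ℕ) [Fact r.Prime] [CharP F r] (C : RC ι) (x : ι → F → L), CS C x →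
  IsSimpleGroup L → (∀ g : L, (∀ y, g * y = y * g) → g = 1) →
  ∀ l : List ι, (∀ i ∈ l, C.simp i) → (∀ j, 0 < C.ht j → C.ht (wl C l j) < 0) →
  ∀ e : MulAut L, am e (BB C x) = BB C x → am e (cj (nl C x l) (BB C x)) = cj (nl C x l) (BB C x) →
    (∀ s ∈ SS C x, am e (Par (BB C x) s) = Par (BB C x) s) →
    ∃ (σ : F ≃+* F) (c : ι → F), Al C x e σ c

/-- **X4b**: automorphisms that stabilize `B` and the opposite subgroup permute the simple roots, and
the Cartan integers are invariant. -/
def StmtX4b : Prop := ∀ (ι : Type) [Finite ι] (F : Type) [Field F] [Finite F] (L : Type u) [Group L]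
  [Finite L] (r : ℕ) [Fact r.Prime] [CharP F r] (C : RC ι) (x : ι → F → L), CS C x →
  IsSimpleGroup L → (∀ g : L, (∀ y, g * y = y * g) → g = 1) →
  ∀ l : List ι, (∀ i ∈ l, C.simp i) → (∀ j, 0 < C.ht j → C.ht (wl C l j) < 0) →
  ∀ e : MulAut L, am e (BB C x) = BB C x → am e (cj (nl C x l) (BB C x)) = cj (nl C x l) (BB C x) →
    ∃ π : Equiv.Perm {i // C.simp i},
      (∀ i, am e (Par (BB C x) (nn C.neg x i.1 1)) = Par (BB C x) (nn C.neg x (π i).1 1)) ∧
      (∀ i j, C.pr i.1 j.1 = 0 ↔ C.pr (π i).1 (π j).1 = 0) ∧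
      ((r = 2 ∨ r = 3) ∨ ∀ i j, C.pr i.1 j.1 = C.pr (π i).1 (π j).1) ∧
      ∀ n : ℕ, e ^ n = 1 → π ^ n = 1

end Vale.Agent.P240.R2.H986.X
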