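import Vale.Agent.P240.R2.H986.X.P4
import Vale.Agent.P240.R2.H165.XF

/-!
Chevalley groups of types `G₂`, `F₄`, `E₈`: few automorphisms of order `p`, for every prime `p` different
from the characteristic.
-/

set_option autoImplicit false

namespace Vale.Agent.P240.R2.H165

open Subgroup Vale.Agent.P240.K Vale.Agent.P240.H195 CartanMatrix
open Vale.Agent.P240.R2.H165.XC
open Vale.Agent.P240.R2.H986.X (ChevRel RC CS stmtX4q few_G2_char3)

universe u v

section
variable {F : Type} [Field F] {L : Type u} [Group L]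

/-- type `G₂` in characteristic three, the prime `2` -/
theorem g2_few_three [Finite F] [Finite L] [CharP F 3] (h : IsChevA G₂ F L)
    (hs : IsSimpleGroup L) (hab : ∃ x y : L, x * y ≠ y * x) : FewAut 2 L := by
  have hZ := centre_of_nonabelian hs hab
  obtain ⟨ι, _, C, x, e, hCS, he⟩ := h.data G2_conn hab
  refine few_G2_char3 (a := (e 1).1) (b := (e 0).1) hCS hs hZ (fun i => ?_) ?_ ?_
  · constructor
    · intro hi
      obtain ⟨a, ha⟩ := e.surjective ⟨i, hi⟩
      have ha' : (e a).1 = i := by rw [ha]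
      fin_cases a
      · exact Or.inr ha'.symm
      · exact Or.inl ha'.symm
    · rintro (rfl | rfl)
      · exact (e 1).2
      · exact (e 0).2
  · rw [he]
    rfl
  · rw [he]
    rfl

/-- the inverse of the Cartan matrix of type `F₄` -/
def f4D : Fin 4 → Fin 4 → ℤ :=
  ![![2, 3, 2, 1], ![3, 6, 4, 2], ![4, 8, 6, 3], ![2, 4, 3, 2]]

lemma f4_mul : ∀ i j : Fin 4, ∑ k, f4D i k * F₄ j k = if i = j then (1 : ℤ) else 0 := by
  decide

lemma f4_perm (π : Equiv.Perm (Fin 4)) (h : ∀ i j, F₄ i j = 0 ↔ F₄ (π i) (π j) = 0)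
    (hl : ∀ i j, F₄ i j % 2 = 0 ↔ F₄ (π i) (π j) % 2 = 0) : π = 1 := by
  have key : ∀ a b c d : Fin 4, ((f4 a b ≠ 0 ∧ f4 b c % 2 = 0 ∧ f4 c d ≠ 0) ∧
      (f4 b c ≠ 0 ∧ f4 a c = 0 ∧ f4 a d = 0 ∧ f4 b d = 0)) →
      (a = 0 ∧ b = 1 ∧ c = 2 ∧ d = 3) ∨ (a = b ∨ c = d ∨ b = c) := by
    decide
  have h1 := key (π 0) (π 1) (π 2) (π 3)
    ⟨⟨fun h1 => absurd ((h 0 1).2 h1) (by decide), (hl 1 2).1 (by decide),
      fun h1 => absurd ((h 2 3).2 h1) (by decide)⟩,
      ⟨fun h1 => absurd ((h 1 2).2 h1) (by decide), (h 0 2).1 (by decide), (h 0 3).1 (by decide),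
        (h 1 3).1 (by decide)⟩⟩
  rcases h1 with ⟨h0, h1, h2, h3⟩ | h1 | h1 | h1
  · ext i
    fin_cases i <;> simp [h0, h1, h2, h3]
  · exact absurd (π.injective h1) (by decide)
  · exact absurd (π.injective h1) (by decide)
  · exact absurd (π.injective h1) (by decide)

/-- type `F₄` in odd characteristic, the prime `2` -/
theorem f4_few_odd [Finite F] [Finite L] {r : ℕ} [Fact r.Prime] [CharP F r] (hr2 : r ≠ 2)
    (h : IsChevA F₄ F L) (hs : IsSimpleGroup L) (hab : ∃ x y : L, x * y ≠ y * x) :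
    FewAut 2 L := by
  classical
  have hZ := centre_of_nonabelian hs hab
  obtain ⟨ι, _, C, x, e, hCS, he⟩ := h.data F4_conn hab
  obtain ⟨D, Δ, hΔ, hD⟩ := exists_D e he f4_mul
  have hsur : ∀ i, C.simp i → ∃ a, (e a).1 = i := fun i hi =>
    ⟨e.symm ⟨i, hi⟩, by rw [e.apply_symm_apply]⟩
  have hinj : ∀ a b, (e a).1 = (e b).1 ↔ a = b := fun a b =>
    ⟨fun h => e.injective (Subtype.ext h), fun h => by rw [h]⟩
  refine stmtX4q ι F L r C x hCS hs hZ 2 Nat.prime_two (Ne.symm hr2)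
    ⟨1, by norm_num, by norm_num, D, Δ, hΔ, ?_⟩ ?_
  · intro i j hi hj
    obtain ⟨a, rfl⟩ := hsur i hi
    obtain ⟨b, rfl⟩ := hsur j hj
    rw [hD a b]
    by_cases hab' : a = b
    · rw [if_pos hab', if_pos (by rw [hab']), Nat.cast_one]
    · rw [if_neg hab', if_neg fun h => hab' ((hinj a b).1 h)]
  · intro π _ hπ hpar _
    have hpar' := hpar hr2
    let σ : Equiv.Perm (Fin 4) := (e.trans π).trans e.symm
    have h3 : ∀ a, e (σ a) = π (e a) := fun a => e.apply_symm_apply _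
    have hσ : σ = 1 := by
      refine f4_perm σ (fun i j => ?_) fun i j => ?_
      · have h1 := hπ (e i) (e j)
        rw [he, ← h3, ← h3, he] at h1
        exact h1
      · have h1 := hpar' (e i) (e j)
        rw [he, ← h3, ← h3, he, Int.even_iff, Int.even_iff] at h1
        exact h1
    ext i
    obtain ⟨a, rfl⟩ := e.surjective i
    rw [← h3, hσ]
    rfl

/-- **few automorphisms** for the types `G₂`, `F₄`, `E₈` (no condition) -/
theorem IsChevU.few_all [Finite F] [Finite L] (h : IsChevU F L) (hs : IsSimpleGroup L)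
    (hab : ∃ x y : L, x * y ≠ y * x) {p : ℕ} (hp : p.Prime) {r : ℕ} [hr : Fact r.Prime]
    [CharP F r] (hpr : p ≠ r) : FewAut p L := by
  by_cases hF : p ≠ 2 ∨ (3 : F) ≠ 0
  · exact IsChevFew.few (p := p) (Or.inr (Or.inr (Or.inl ⟨hF, h⟩))) hs hab hp hpr
  · push Not at hF
    obtain ⟨hp2, hF3⟩ := hF
    subst hp2
    have hr3 : r = 3 := by
      have h4 : r ∣ 3 := (CharP.cast_eq_zero_iff F r 3).1 (by exact_mod_cast hF3)
      exact (Nat.prime_dvd_prime_iff_eq hr.out Nat.prime_three).1 h4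
    subst hr3
    rcases h with h | h | h
    · exact g2_few_three h hs hab
    · exact f4_few_odd (r := 3) (by norm_num) h hs hab
    · exact IsChevFew.few (p := 2) (Or.inl h) hs hab hp hpr

/-- groups of Lie type -/
theorem IsChevU.main [Finite F] [Finite L] (h : IsChevU F L) (hs : IsSimpleGroup L)
    (hab : ∃ x y : L, x * y ≠ y * x) (r : ℕ) [Fact r.Prime] [CharP F r] :
    LieType r L ∧ RigidLie r L :=
  IsChevFew.main (p := 3) (Or.inr (Or.inr (Or.inl ⟨Or.inl (by norm_num), h⟩))) hs hab r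

end

end Vale.Agent.P240.R2.H165
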