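import Vale.Agent.P240.R2.H986.X.Stm

/-!
The groups `T` and `N`.
-/

set_option autoImplicit false

namespace Vale.Agent.P240.R2.H986.X

open Subgroup Vale.Agent.P240.H195

section
variable {ι : Type*} {F : Type*} [Field F] {L : Type*} [Group L] {C : RC ι} {x : ι → F → L}

/-- the product of the `n_i(1)` -/
def nl (C : RC ι) (x : ι → F → L) (l : List ι) : L := (l.map fun i => nn C.neg x i 1).prod

/-- the product of the reflections -/
def wl (C : RC ι) (l : List ι) (j : ι) : ι := l.foldr C.s j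

lemma nl_nil : nl C x [] = 1 := rfl

lemma nl_cons (i : ι) (l : List ι) : nl C x (i :: l) = nn C.neg x i 1 * nl C x l := by
  simp [nl]

lemma nl_append (l l' : List ι) : nl C x (l ++ l') = nl C x l * nl C x l' := by
  simp [nl]

lemma wl_nil (j : ι) : wl C [] j = j := rfl

lemma wl_cons (i : ι) (l : List ι) (j : ι) : wl C (i :: l) j = C.s i (wl C l j) := rfl

lemma wl_append (l l' : List ι) (j : ι) : wl C (l ++ l') j = wl C l (wl C l' j) := by
  simp [wl]

lemma wl_neg (l : List ι) (j : ι) : wl C l (C.neg j) = C.neg (wl C l j) := by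
  induction l with
  | nil => rfl
  | cons i l ih => rw [wl_cons, wl_cons, ih, C.s_neg]

/-- conjugation of reflections -/
lemma wl_s (l : List ι) (i j : ι) : wl C l (C.s i j) = C.s (wl C l i) (wl C l j) := by
  induction l with
  | nil => rfl
  | cons k l ih =>
    rw [wl_cons, wl_cons, wl_cons, ih, C.s_conj, C.s_s]

/-- the inverse -/
lemma wl_rev (l : List ι) (j : ι) : wl C l.reverse (wl C l j) = j := by
  induction l generalizing j with
  | nil => rfl
  | cons i l ih =>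
    rw [List.reverse_cons, wl_append, wl_cons, wl_cons, wl_nil, C.s_s, ih]

lemma wl_rev' (l : List ι) (j : ι) : wl C l (wl C l.reverse j) = j := by
  have := wl_rev (C := C) l.reverse j
  rwa [List.reverse_reverse] at this

namespace CS

variable (h : CS C x)
include h

lemma x_zero (i : ι) : x i 0 = 1 := by
  have h1 := h.add i 0 0
  rw [add_zero] at h1
  exact mul_eq_left.1 h1.symm

lemma x_neg (i : ι) (t : F) : x i (-t) = (x i t)⁻¹ := by
  rw [eq_inv_iff_mul_eq_one, ← h.add, neg_add_cancel, h.x_zero]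

lemma x_inj {i : ι} {t u : F} (e : x i t = x i u) : t = u := by
  have h1 : x i (t + -u) = 1 := by rw [h.add, h.x_neg, e, mul_inv_cancel]
  have h2 := h.inj i _ h1
  linear_combination h2

/-- the inverse of `n_i(t)` -/
lemma nn_inv (i : ι) (t : F) : (nn C.neg x i t)⁻¹ = nn C.neg x i (-t) := by
  rw [nn, nn, mul_inv_rev, mul_inv_rev, ← h.x_neg, ← h.x_neg, inv_neg, neg_neg, mul_assoc]

/-- conjugation of `n_i(t)` -/
lemma nn_conj (j i : ι) {c : F} (hc : c * c = 1) {v : F} (hv : v ≠ 0)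
    (hcj : ∀ t u : F, t ≠ 0 →
      nn C.neg x j t * x i u * (nn C.neg x j t)⁻¹ = x (C.s j i) (c * t ^ (-C.pr i j) * u) ∧
      nn C.neg x j t * x (C.neg i) u * (nn C.neg x j t)⁻¹ =
        x (C.neg (C.s j i)) (c * t ^ C.pr i j * u)) {t : F} (ht : t ≠ 0) :
    nn C.neg x j v * nn C.neg x i t * (nn C.neg x j v)⁻¹ =
      nn C.neg x (C.s j i) (c * v ^ (-C.pr i j) * t) := by
  have h1 := (hcj v t hv).1
  have h2 := (hcj v (-t⁻¹) hv).2
  have hc0 : c ≠ 0 := left_ne_zero_of_mul_eq_one hc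
  have hc1 : c⁻¹ = c := inv_eq_of_mul_eq_one_right hc
  have e1 : c * v ^ C.pr i j * -t⁻¹ = -(c * v ^ (-C.pr i j) * t)⁻¹ := by
    rw [mul_inv, mul_inv, hc1, ← zpow_neg, neg_neg]
    ring
  rw [e1] at h2
  calc nn C.neg x j v * nn C.neg x i t * (nn C.neg x j v)⁻¹
      = (nn C.neg x j v * x i t * (nn C.neg x j v)⁻¹) *
        (nn C.neg x j v * x (C.neg i) (-t⁻¹) * (nn C.neg x j v)⁻¹) *
        (nn C.neg x j v * x i t * (nn C.neg x j v)⁻¹) := by
          rw [show nn C.neg x i t = x i t * x (C.neg i) (-t⁻¹) * x i t from rfl]; group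
    _ = _ := by rw [h1, h2]; rfl

lemma nn_conj' (j i : ι) {v : F} (hv : v ≠ 0) :
    ∃ c : F, c ≠ 0 ∧ ∀ t : F, t ≠ 0 → nn C.neg x j v * nn C.neg x i t * (nn C.neg x j v)⁻¹ =
      nn C.neg x (C.s j i) (c * t) := by
  obtain ⟨c, hc, hcj⟩ := h.refl j i
  refine ⟨c * v ^ (-C.pr i j), mul_ne_zero (left_ne_zero_of_mul_eq_one hc) (zpow_ne_zero _ hv),
    fun t ht => ?_⟩
  exact h.nn_conj j i hc hv hcj ht

/-- `h_i(t)` -/
lemma h_mem {i : ι} {t : F} (ht : t ≠ 0) : nn C.neg x i t * (nn C.neg x i 1)⁻¹ ∈ TT C x :=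
  subset_closure ⟨i, t, ht, rfl⟩

lemma nn_nn {i : ι} {t u : F} (ht : t ≠ 0) (hu : u ≠ 0) :
    nn C.neg x i t * nn C.neg x i u ∈ TT C x := by
  have h1 : nn C.neg x i u = (nn C.neg x i (-u))⁻¹ := by rw [h.nn_inv, neg_neg]
  have e1 : nn C.neg x i t * nn C.neg x i u = (nn C.neg x i t * (nn C.neg x i 1)⁻¹) *
      (nn C.neg x i (-u) * (nn C.neg x i 1)⁻¹)⁻¹ := by rw [h1]; group
  rw [e1]
  exact mul_mem (h.h_mem ht) (inv_mem (h.h_mem (neg_ne_zero.2 hu)))

lemma nn_inv_nn {i : ι} {t u : F} (ht : t ≠ 0) (hu : u ≠ 0) :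
    (nn C.neg x i t)⁻¹ * nn C.neg x i u ∈ TT C x := by
  rw [h.nn_inv]
  exact h.nn_nn (neg_ne_zero.2 ht) hu

/-- the action of `h_i(t)` on the root elements -/
lemma h_act (i j : ι) {t : F} (ht : t ≠ 0) (u : F) :
    (nn C.neg x i t * (nn C.neg x i 1)⁻¹) * x j u * (nn C.neg x i t * (nn C.neg x i 1)⁻¹)⁻¹ =
      x j (t ^ C.pr j i * u) := by
  obtain ⟨c, hc, hcj⟩ := h.refl i (C.s i j)
  have h1 := (hcj 1 (c * u) one_ne_zero).1
  rw [C.s_s, one_zpow, mul_one, ← mul_assoc, hc, one_mul] at h1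
  have h2 := (hcj t (c * u) ht).1
  rw [C.s_s, C.pr_s, neg_neg] at h2
  have e2 : c * t ^ C.pr j i * (c * u) = t ^ C.pr j i * u := by linear_combination (t ^ C.pr j i * u) * hc
  rw [e2] at h2
  rw [← h2, ← h1]
  group

/-- `T` acts on the root elements by scalars -/
lemma T_act {g : L} (hg : g ∈ TT C x) (j : ι) : ∃ c : F, c ≠ 0 ∧ ∀ u, g * x j u * g⁻¹ = x j (c * u) := by
  refine closure_induction (p := fun g _ => ∃ c : F, c ≠ 0 ∧ ∀ u, g * x j u * g⁻¹ = x j (c * u))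
    ?_ ?_ ?_ ?_ hg
  · rintro _ ⟨i, t, ht, rfl⟩
    exact ⟨t ^ C.pr j i, zpow_ne_zero _ ht, fun u => h.h_act i j ht u⟩
  · exact ⟨1, one_ne_zero, fun u => by simp⟩
  · rintro a b _ _ ⟨c, hc, h1⟩ ⟨d, hd, h2⟩
    refine ⟨c * d, mul_ne_zero hc hd, fun u => ?_⟩
    calc a * b * x j u * (a * b)⁻¹ = a * (b * x j u * b⁻¹) * a⁻¹ := by group
      _ = _ := by rw [h2, h1, mul_assoc]
  · rintro a _ ⟨c, hc, h1⟩
    refine ⟨c⁻¹, inv_ne_zero hc, fun u => ?_⟩
    have h2 := h1 (c⁻¹ * u)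
    rw [mul_inv_cancel_left₀ hc] at h2
    rw [← h2]
    group

/-- `n_i(v)` normalizes `T` -/
lemma nn_conj_T (j : ι) {v : F} (hv : v ≠ 0) {g : L} (hg : g ∈ TT C x) :
    nn C.neg x j v * g * (nn C.neg x j v)⁻¹ ∈ TT C x := by
  refine closure_induction (p := fun g _ => nn C.neg x j v * g * (nn C.neg x j v)⁻¹ ∈ TT C x)
    ?_ ?_ ?_ ?_ hg
  · rintro _ ⟨i, t, ht, rfl⟩
    obtain ⟨c, hc, h1⟩ := h.nn_conj' j i hv
    have e1 : nn C.neg x j v * (nn C.neg x i t * (nn C.neg x i 1)⁻¹) * (nn C.neg x j v)⁻¹ =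
        (nn C.neg x j v * nn C.neg x i t * (nn C.neg x j v)⁻¹) *
        (nn C.neg x j v * nn C.neg x i 1 * (nn C.neg x j v)⁻¹)⁻¹ := by group
    rw [e1, h1 t ht, h1 1 one_ne_zero, h.nn_inv]
    exact h.nn_nn (mul_ne_zero hc ht) (neg_ne_zero.2 (mul_ne_zero hc one_ne_zero))
  · rw [mul_one, mul_inv_cancel]
    exact one_mem _
  · intro a b _ _ h1 h2
    have e1 : nn C.neg x j v * (a * b) * (nn C.neg x j v)⁻¹ =
        (nn C.neg x j v * a * (nn C.neg x j v)⁻¹) * (nn C.neg x j v * b * (nn C.neg x j v)⁻¹) := by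
      group
    rw [e1]
    exact mul_mem h1 h2
  · intro a _ h1
    have e1 : nn C.neg x j v * a⁻¹ * (nn C.neg x j v)⁻¹ =
        (nn C.neg x j v * a * (nn C.neg x j v)⁻¹)⁻¹ := by group
    rw [e1]
    exact inv_mem h1

lemma nl_conj_T (l : List ι) {g : L} (hg : g ∈ TT C x) : nl C x l * g * (nl C x l)⁻¹ ∈ TT C x := by
  induction l with
  | nil => simpa [nl_nil] using hg
  | cons i l ih =>
    rw [nl_cons]
    have e1 : nn C.neg x i 1 * nl C x l * g * (nn C.neg x i 1 * nl C x l)⁻¹ =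
        nn C.neg x i 1 * (nl C x l * g * (nl C x l)⁻¹) * (nn C.neg x i 1)⁻¹ := by group
    rw [e1]
    exact h.nn_conj_T i one_ne_zero ih

/-- the action of `nl l` on the root elements -/
lemma nl_act (l : List ι) (j : ι) : ∃ c : F, c ≠ 0 ∧
    ∀ u, nl C x l * x j u * (nl C x l)⁻¹ = x (wl C l j) (c * u) := by
  induction l with
  | nil => exact ⟨1, one_ne_zero, fun u => by simp [nl_nil, wl_nil]⟩
  | cons i l ih =>
    obtain ⟨c, hc, h1⟩ := ih
    obtain ⟨d, hd, h2⟩ := h.refl i (wl C l j)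
    refine ⟨d * c, mul_ne_zero (left_ne_zero_of_mul_eq_one hd) hc, fun u => ?_⟩
    have e1 : nl C x (i :: l) * x j u * (nl C x (i :: l))⁻¹ =
        nn C.neg x i 1 * (nl C x l * x j u * (nl C x l)⁻¹) * (nn C.neg x i 1)⁻¹ := by
      rw [nl_cons]; group
    rw [e1, h1, (h2 1 _ one_ne_zero).1, wl_cons, one_zpow, mul_one, mul_assoc]

lemma nl_nn (l : List ι) (j : ι) : ∃ c : F, c ≠ 0 ∧
    ∀ t, t ≠ 0 → nl C x l * nn C.neg x j t * (nl C x l)⁻¹ = nn C.neg x (wl C l j) (c * t) := by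
  induction l with
  | nil => exact ⟨1, one_ne_zero, fun u _ => by simp [nl_nil, wl_nil]⟩
  | cons i l ih =>
    obtain ⟨c, hc, h1⟩ := ih
    obtain ⟨d, hd, h2⟩ := h.nn_conj' i (wl C l j) one_ne_zero
    refine ⟨d * c, mul_ne_zero hd hc, fun t ht => ?_⟩
    have e1 : nl C x (i :: l) * nn C.neg x j t * (nl C x (i :: l))⁻¹ =
        nn C.neg x i 1 * (nl C x l * nn C.neg x j t * (nl C x l)⁻¹) * (nn C.neg x i 1)⁻¹ := by
      rw [nl_cons]; group
    rw [e1, h1 t ht, h2 _ (mul_ne_zero hc ht), wl_cons, mul_assoc]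

lemma SS_le : ∀ s ∈ SS C x, s ∈ NN C x := fun _ hs => (le_sup_left : _ ≤ NN C x) (subset_closure hs)

omit h in
lemma TT_le : TT C x ≤ NN C x := le_sup_right

omit h in
lemma nl_mem {l : List ι} (hl : ∀ i ∈ l, C.simp i) : nl C x l ∈ NN C x := by
  induction l with
  | nil => exact one_mem _
  | cons i l ih =>
    rw [nl_cons]
    exact mul_mem ((le_sup_left : _ ≤ NN C x) (subset_closure ⟨i, hl i (by simp), rfl⟩))
      (ih fun k hk => hl k (by simp [hk]))

/-- the elements of `N` -/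
lemma mem_NN {g : L} (hg : g ∈ NN C x) : ∃ t ∈ TT C x, ∃ l : List ι, (∀ i ∈ l, C.simp i) ∧
    g = t * nl C x l := by
  have e0 : NN C x = closure (SS C x ∪ (TT C x : Set L)) := by
    rw [NN, Subgroup.closure_union, Subgroup.closure_eq]
  rw [e0] at hg
  refine closure_induction_left (p := fun g _ => ∃ t ∈ TT C x, ∃ l : List ι, (∀ i ∈ l, C.simp i) ∧
    g = t * nl C x l) ⟨1, one_mem _, [], by simp, by simp [nl_nil]⟩ ?_ ?_ hg
  · rintro s hs y _ ⟨t, ht, l, hl, rfl⟩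
    rcases hs with ⟨i, hi, rfl⟩ | hs
    · refine ⟨nn C.neg x i 1 * t * (nn C.neg x i 1)⁻¹, h.nn_conj_T i one_ne_zero ht, i :: l, ?_, ?_⟩
      · intro k hk
        rcases List.mem_cons.1 hk with rfl | hk
        · exact hi
        · exact hl k hk
      · rw [nl_cons]; group
    · exact ⟨s * t, mul_mem hs ht, l, hl, by rw [mul_assoc]⟩
  · rintro s hs y _ ⟨t, ht, l, hl, rfl⟩
    rcases hs with ⟨i, hi, rfl⟩ | hs
    · have h1 : (nn C.neg x i 1)⁻¹ * (nn C.neg x i 1)⁻¹ ∈ TT C x := by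
        rw [← mul_inv_rev]
        exact inv_mem (h.nn_nn one_ne_zero one_ne_zero)
      have h2 := h.nn_conj_T i one_ne_zero ht
      refine ⟨(nn C.neg x i 1)⁻¹ * (nn C.neg x i 1)⁻¹ *
        (nn C.neg x i 1 * t * (nn C.neg x i 1)⁻¹), mul_mem h1 h2, i :: l, ?_, ?_⟩
      · intro k hk
        rcases List.mem_cons.1 hk with rfl | hk
        · exact hi
        · exact hl k hk
      · rw [nl_cons]; group
    · exact ⟨s⁻¹ * t, mul_mem (inv_mem hs) ht, l, hl, by rw [mul_assoc]⟩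

/-- the deletion argument -/
theorem nl_mem_T : ∀ (k : ℕ) (l : List ι), l.length = k → (∀ i ∈ l, C.simp i) →
    (∀ j, 0 < C.ht j → 0 < C.ht (wl C l j)) → nl C x l ∈ TT C x := by
  intro k
  induction k using Nat.strong_induction_on with
  | _ k ih =>
    intro l hlen hl hpos
    rcases l.eq_nil_or_concat' with rfl | ⟨l', a, rfl⟩
    · exact one_mem _
    have ha : C.simp a := hl a (by simp)
    have hl' : ∀ i ∈ l', C.simp i := fun i hi => hl i (by simp [hi])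
    have h1 : C.ht (wl C l' a) < 0 := by
      have h2 := hpos a (C.simp_pos a ha)
      rw [wl_append, wl_cons, wl_nil, C.s_self, wl_neg, C.ht_neg] at h2
      omega
    -- the place
    have h2 : ∀ m : List ι, (∀ i ∈ m, C.simp i) → C.ht (wl C m a) < 0 →
        ∃ (A : List ι) (i : ι) (D : List ι), m = A ++ i :: D ∧ wl C D a = i := by
      intro m
      induction m with
      | nil =>
        intro _ h3
        rw [wl_nil] at h3
        have := C.simp_pos a ha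
        omega
      | cons b m ihm =>
        intro hm h3
        by_cases h4 : C.ht (wl C m a) < 0
        · obtain ⟨A, i, D, rfl, h5⟩ := ihm (fun i hi => hm i (by simp [hi])) h4
          exact ⟨b :: A, i, D, by simp, h5⟩
        · refine ⟨[], b, m, rfl, ?_⟩
          by_contra hne
          have h5 := C.ht_ne (wl C m a)
          have h6 := C.s_pos b (wl C m a) (hm b (by simp)) (by omega) hne
          rw [wl_cons] at h3
          omega
    obtain ⟨A, i, D, rfl, hD⟩ := h2 l' hl' h1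
    have hA : ∀ j ∈ A, C.simp j := fun j hj => hl j (by simp [hj])
    have hDs : ∀ j ∈ D, C.simp j := fun j hj => hl j (by simp [hj])
    obtain ⟨c, hc, h3⟩ := h.nl_nn D a
    have h4 := h3 1 one_ne_zero
    rw [hD, mul_one] at h4
    have e1 : nl C x (A ++ i :: D ++ [a]) =
        (nl C x A * (nn C.neg x i 1 * nn C.neg x i c) * (nl C x A)⁻¹) * nl C x (A ++ D) := by
      rw [← h4, nl_append, nl_append, nl_append, nl_cons, nl_cons, nl_nil]
      group
    have hw : ∀ j, wl C (A ++ i :: D ++ [a]) j = wl C (A ++ D) j := by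
      intro j
      rw [wl_append, wl_append, wl_append, wl_cons, wl_cons, wl_nil, wl_s D, hD, C.s_s]
    rw [e1]
    refine mul_mem (h.nl_conj_T A (h.nn_nn one_ne_zero hc)) (ih (A ++ D).length ?_ _ rfl ?_ ?_)
    · rw [← hlen]
      simp
    · intro j hj
      rcases List.mem_append.1 hj with h5 | h5
      · exact hA j h5
      · exact hDs j h5
    · intro j hj
      rw [← hw]
      exact hpos j hj

omit h in
lemma x_mem_UU {i : ι} (hi : 0 < C.ht i) (t : F) : x i t ∈ UU C x := subset_closure ⟨i, t, hi, rfl⟩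

omit h in
lemma x_mem_UM {i : ι} (hi : C.ht i < 0) (t : F) : x i t ∈ UM C x := subset_closure ⟨i, t, hi, rfl⟩

omit h in
lemma x_mem_gr {p : ι → Prop} {i : ι} (hi : p i) (t : F) : x i t ∈ gr x p :=
  subset_closure ⟨i, t, hi, rfl⟩

lemma x_not_mem {i : ι} (hi : C.ht i < 0) {t : F} (ht : x i t ∈ UU C x) : t = 0 := by
  have h1 : x i t ∈ UU C x ⊓ UM C x := ⟨ht, x_mem_UM hi t⟩
  rw [show UU C x ⊓ UM C x = ⊥ from h.opp, mem_bot] at h1
  exact h.inj i t h1

/-- `T` normalizes `gr x p` -/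
lemma T_conj_gr {p : ι → Prop} {t : L} (ht : t ∈ TT C x) {u : L} (hu : u ∈ gr x p) :
    t * u * t⁻¹ ∈ gr x p := by
  refine closure_induction (p := fun u _ => t * u * t⁻¹ ∈ gr x p) ?_ ?_ ?_ ?_ hu
  · rintro _ ⟨i, v, hi, rfl⟩
    obtain ⟨c, -, h1⟩ := h.T_act ht i
    rw [h1]
    exact x_mem_gr hi _
  · simp
  · intro a b _ _ h1 h2
    have e1 : t * (a * b) * t⁻¹ = (t * a * t⁻¹) * (t * b * t⁻¹) := by group
    rw [e1]
    exact mul_mem h1 h2
  · intro a _ h1
    have e1 : t * a⁻¹ * t⁻¹ = (t * a * t⁻¹)⁻¹ := by group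
    rw [e1]
    exact inv_mem h1

/-- `nl l` maps `gr x p` to `gr x q` -/
lemma nl_conj_gr {p q : ι → Prop} {l : List ι} (hpq : ∀ i, p i → q (wl C l i)) {u : L}
    (hu : u ∈ gr x p) : nl C x l * u * (nl C x l)⁻¹ ∈ gr x q := by
  refine closure_induction (p := fun u _ => nl C x l * u * (nl C x l)⁻¹ ∈ gr x q) ?_ ?_ ?_ ?_ hu
  · rintro _ ⟨i, v, hi, rfl⟩
    obtain ⟨c, -, h1⟩ := h.nl_act l i
    rw [h1]
    exact x_mem_gr (hpq i hi) _
  · simp
  · intro a b _ _ h1 h2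
    have e1 : nl C x l * (a * b) * (nl C x l)⁻¹ =
        (nl C x l * a * (nl C x l)⁻¹) * (nl C x l * b * (nl C x l)⁻¹) := by group
    rw [e1]
    exact mul_mem h1 h2
  · intro a _ h1
    have e1 : nl C x l * a⁻¹ * (nl C x l)⁻¹ = (nl C x l * a * (nl C x l)⁻¹)⁻¹ := by group
    rw [e1]
    exact inv_mem h1

/-- the elements of `B` -/
lemma mem_BB {g : L} (hg : g ∈ BB C x) : ∃ u ∈ UU C x, ∃ t ∈ TT C x, g = u * t := by
  have e0 : BB C x = closure ((UU C x : Set L) ∪ (TT C x : Set L)) := by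
    rw [BB, Subgroup.closure_union, Subgroup.closure_eq, Subgroup.closure_eq]
  rw [e0] at hg
  refine closure_induction_left (p := fun g _ => ∃ u ∈ UU C x, ∃ t ∈ TT C x, g = u * t)
    ⟨1, one_mem _, 1, one_mem _, by simp⟩ ?_ ?_ hg
  · rintro s hs y _ ⟨u, hu, t, ht, rfl⟩
    rcases hs with hs | hs
    · exact ⟨s * u, mul_mem hs hu, t, ht, by rw [mul_assoc]⟩
    · exact ⟨s * u * s⁻¹, h.T_conj_gr hs hu, s * t, mul_mem hs ht, by group⟩
  · rintro s hs y _ ⟨u, hu, t, ht, rfl⟩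
    rcases hs with hs | hs
    · exact ⟨s⁻¹ * u, mul_mem (inv_mem hs) hu, t, ht, by rw [mul_assoc]⟩
    · exact ⟨s⁻¹ * u * s⁻¹⁻¹, h.T_conj_gr (inv_mem hs) hu, s⁻¹ * t, mul_mem (inv_mem hs) ht, by group⟩

omit h in
lemma UU_le : UU C x ≤ BB C x := le_sup_left

omit h in
lemma TT_le_BB : TT C x ≤ BB C x := le_sup_right

/-- `U` is normal in `B` -/
lemma B_conj_U {g : L} (hg : g ∈ BB C x) {u : L} (hu : u ∈ UU C x) : g * u * g⁻¹ ∈ UU C x := by
  obtain ⟨v, hv, t, ht, rfl⟩ := h.mem_BB hg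
  have e1 : v * t * u * (v * t)⁻¹ = v * (t * u * t⁻¹) * v⁻¹ := by group
  rw [e1]
  exact mul_mem (mul_mem hv (h.T_conj_gr ht hu)) (inv_mem hv)

/-- **`B ∩ N = T`** -/
theorem inf_eq : BB C x ⊓ NN C x = TT C x := by
  refine le_antisymm ?_ (le_inf TT_le_BB TT_le)
  rintro g ⟨hgB, hgN⟩
  obtain ⟨t, ht, l, hl, rfl⟩ := h.mem_NN hgN
  refine mul_mem ht ?_
  have hB : nl C x l ∈ BB C x := by
    have h1 := mul_mem (inv_mem (TT_le_BB ht)) hgB
    rwa [inv_mul_cancel_left] at h1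
  refine h.nl_mem_T _ l rfl hl fun j hj => ?_
  by_contra hcon
  have h1 := C.ht_ne (wl C l j)
  obtain ⟨c, hc, h2⟩ := h.nl_act l j
  have h3 := h.B_conj_U hB (x_mem_UU (x := x) hj 1)
  rw [h2, mul_one] at h3
  exact hc (h.x_not_mem (by omega) h3)

end CS

end

end Vale.Agent.P240.R2.H986.X
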