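import Vale.Agent.P240.R2.H986.X.Rt

/-!
Hua's identity and the action of an automorphism on a pair of opposite root subgroups.
-/

set_option autoImplicit false

namespace Vale.Agent.P240.R2.H986.X

open Subgroup Vale.Agent.P240.K Vale.Agent.P240.H195

/-- **Hua** (commutative, finite) -/
theorem hua {F : Type*} [Field F] [Finite F] (ψ φ : F → F) (h1 : ∀ a b, ψ (a + b) = ψ a + ψ b)
    (h2 : ∀ a b, φ (a + b) = φ a + φ b) (h3 : Function.Injective ψ)
    (h4 : ∀ t, t ≠ 0 → φ t⁻¹ = (ψ t)⁻¹) :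
    ∃ (σ : F ≃+* F) (c : F), c ≠ 0 ∧ ∀ t, ψ t = c * σ t ∧ φ t = c⁻¹ * σ t := by
  have z1 : ψ 0 = 0 := by have := h1 0 0; rw [add_zero] at this; linear_combination -this
  have z2 : φ 0 = 0 := by have := h2 0 0; rw [add_zero] at this; linear_combination -this
  have n1 : ∀ a, ψ (-a) = -ψ a := fun a => by
    have := h1 a (-a); rw [add_neg_cancel, z1] at this; linear_combination -this
  have n2 : ∀ a, φ (-a) = -φ a := fun a => by
    have := h2 a (-a); rw [add_neg_cancel, z2] at this; linear_combination -this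
  have nz : ∀ a, a ≠ 0 → ψ a ≠ 0 := fun a ha e => ha (h3 (by rw [e, z1]))
  obtain ⟨c, hc⟩ : ∃ c, c = ψ 1 := ⟨_, rfl⟩
  have hc0 : c ≠ 0 := by rw [hc]; exact nz 1 one_ne_zero
  -- the normalized maps
  obtain ⟨s, hs⟩ : ∃ s : F → F, ∀ t, s t = c⁻¹ * ψ t := ⟨_, fun _ => rfl⟩
  obtain ⟨τ, hτ⟩ : ∃ τ : F → F, ∀ t, τ t = c * φ t := ⟨_, fun _ => rfl⟩
  have s1 : s 1 = 1 := by rw [hs, ← hc, inv_mul_cancel₀ hc0]
  have s0 : s 0 = 0 := by rw [hs, z1, mul_zero]
  have sadd : ∀ a b, s (a + b) = s a + s b := fun a b => by rw [hs, hs, hs, h1, mul_add]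
  have sneg : ∀ a, s (-a) = - s a := fun a => by rw [hs, hs, n1, mul_neg]
  have τadd : ∀ a b, τ (a + b) = τ a + τ b := fun a b => by rw [hτ, hτ, hτ, h2, mul_add]
  have snz : ∀ a, a ≠ 0 → s a ≠ 0 := fun a ha => by
    rw [hs]; exact mul_ne_zero (inv_ne_zero hc0) (nz a ha)
  have τinv : ∀ a, a ≠ 0 → τ a⁻¹ = (s a)⁻¹ := fun a ha => by
    rw [hτ, hs, h4 a ha, mul_inv, inv_inv]
  have τinv' : ∀ a, a ≠ 0 → τ a = (s a⁻¹)⁻¹ := fun a ha => by
    have := τinv a⁻¹ (inv_ne_zero ha)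
    rwa [inv_inv] at this
  -- Hua's identity
  have key : ∀ a d, a ≠ 0 → d ≠ 0 → a ≠ d → s (a * a * d⁻¹) = s a * s a * (s d)⁻¹ := by
    intro a d ha hd had
    have hda : d - a ≠ 0 := sub_ne_zero.2 (Ne.symm had)
    have e1 : a⁻¹ + (d - a)⁻¹ = (a - a * a * d⁻¹)⁻¹ := by
      have h5 : a - a * a * d⁻¹ = a * (d - a) * d⁻¹ := by field_simp
      rw [h5]
      field_simp
      ring
    have hne : a - a * a * d⁻¹ ≠ 0 := by
      have h5 : a - a * a * d⁻¹ = a * (d - a) * d⁻¹ := by field_simp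
      rw [h5]
      exact mul_ne_zero (mul_ne_zero ha hda) (inv_ne_zero hd)
    have e2 : (s (a - a * a * d⁻¹))⁻¹ = (s a)⁻¹ + (s d - s a)⁻¹ := by
      rw [← τinv _ hne, ← e1, τadd, τinv a ha, τinv _ hda, sub_eq_add_neg d a, sadd, sneg,
        ← sub_eq_add_neg]
    have hsa := snz a ha
    have hsd := snz d hd
    have hsda : s d - s a ≠ 0 := by
      have := snz _ hda
      rwa [sub_eq_add_neg, sadd, sneg, ← sub_eq_add_neg] at this
    have e3 : s (a - a * a * d⁻¹) = s a - s a * s a * (s d)⁻¹ := by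
      have h6 : (s a)⁻¹ + (s d - s a)⁻¹ = (s a - s a * s a * (s d)⁻¹)⁻¹ := by
        have h5 : s a - s a * s a * (s d)⁻¹ = s a * (s d - s a) * (s d)⁻¹ := by field_simp
        rw [h5]
        field_simp
        ring
      rw [h6] at e2
      exact inv_injective e2
    rw [sub_eq_add_neg, sadd, sneg] at e3
    linear_combination -e3
  have sinv : ∀ d, d ≠ 0 → s d⁻¹ = (s d)⁻¹ := by
    intro d hd
    by_cases h5 : (1 : F) = d
    · rw [← h5, inv_one, s1, inv_one]
    · have := key 1 d one_ne_zero hd h5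
      rwa [one_mul, one_mul, s1, one_mul, one_mul] at this
  have sq : ∀ a b, s (a * a * b) = s a * s a * s b := by
    intro a b
    by_cases ha : a = 0
    · subst ha; rw [zero_mul, zero_mul, s0, zero_mul, zero_mul]
    by_cases hb : b = 0
    · subst hb; rw [mul_zero, s0, mul_zero]
    by_cases hab : a = b⁻¹
    · subst hab
      rw [mul_assoc, inv_mul_cancel₀ hb, mul_one, sinv b hb]
      have := snz b hb
      field_simp
    · have := key a b⁻¹ ha (inv_ne_zero hb) hab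
      rwa [inv_inv, sinv b hb, inv_inv] at this
  have smul : ∀ a b, s (a * b) = s a * s b := by
    intro a b
    by_cases hch : (2 : F) = 0
    · -- all elements are squares
      have hsurj : ∃ e, a = e * e := by
        have hfr : Function.Injective fun x : F => x * x := by
          intro x y hxy
          have h5 : (x - y) * (x - y) = 0 := by
            have hxy' : x * x = y * y := hxy
            linear_combination hxy' + (y * y - x * y) * hch
          have h6 := mul_self_eq_zero.1 h5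
          exact sub_eq_zero.1 h6
        obtain ⟨e, he⟩ := (Finite.injective_iff_surjective.1 hfr) a
        exact ⟨e, he.symm⟩
      obtain ⟨e, rfl⟩ := hsurj
      have h5 := sq e 1
      rw [mul_one, s1, mul_one] at h5
      rw [sq, h5]
    · have h5 := sq (a + 1) b
      have h6 := sq a b
      have e1 : (a + 1) * (a + 1) * b = a * a * b + (a * b + a * b) + b := by ring
      rw [e1, sadd, sadd, sadd, sadd, s1, h6] at h5
      have h7 : (2 : F) * (s (a * b) - s a * s b) = 0 := by linear_combination h5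
      exact sub_eq_zero.1 ((mul_eq_zero.1 h7).resolve_left hch)
  have sinj : Function.Injective s := by
    intro a b hab
    rw [hs, hs] at hab
    exact h3 (mul_left_cancel₀ (inv_ne_zero hc0) hab)
  let f : F →+* F :=
    { toFun := s, map_one' := s1, map_mul' := smul, map_zero' := s0, map_add' := sadd }
  have hbij : Function.Bijective f := ⟨sinj, Finite.injective_iff_surjective.1 sinj⟩
  refine ⟨RingEquiv.ofBijective f hbij, c, hc0, fun t => ⟨?_, ?_⟩⟩
  · change ψ t = c * s t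
    rw [hs, mul_inv_cancel_left₀ hc0]
  · change φ t = c⁻¹ * s t
    have : s t = τ t := by
      by_cases ht : t = 0
      · subst ht; rw [s0, hτ, z2, mul_zero]
      · rw [τinv' t ht, sinv t ht, inv_inv]
    rw [this, hτ, inv_mul_cancel_left₀ hc0]

section
variable {ι : Type*} {F : Type*} [Field F] {L : Type*} [Group L] {C : RC ι} {x : ι → F → L}

namespace CS

variable (h : CS C x)
include h

lemma x_ne_opp {k : ι} {u v : F} (e : x k u = x (C.neg k) v) : u = 0 ∧ v = 0 := by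
  rcases lt_or_gt_of_ne (C.ht_ne k) with hk | hk
  · have h1 : x k u ∈ UU C x := by
      rw [e]
      exact x_mem_UU (by rw [C.ht_neg]; omega) v
    have h2 := h.x_not_mem hk h1
    refine ⟨h2, h.inj (C.neg k) _ ?_⟩
    rw [← e, h2, h.x_zero]
  · have h1 : x (C.neg k) v ∈ UU C x := by
      rw [← e]
      exact x_mem_UU hk u
    have h2 := h.x_not_mem (by rw [C.ht_neg]; omega) h1
    refine ⟨h.inj k _ ?_, h2⟩
    rw [e, h2, h.x_zero]

/-- a nontrivial element of `X_{-k}` does not normalize `X_k` -/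
lemma norm_zero {k : ι} {w : F}
    (hw : ∀ u, ∃ u', x (C.neg k) w * x k u * (x (C.neg k) w)⁻¹ = x k u') : w = 0 := by
  by_contra hne
  obtain ⟨c, hc, hk⟩ := h.refl k k
  have hti : -w⁻¹ ≠ 0 := neg_ne_zero.2 (inv_ne_zero hne)
  have h1 := (hk (-w⁻¹) 1 hti).1
  have e1 : nn C.neg x k (-w⁻¹) = x k (-w⁻¹) * x (C.neg k) w * x k (-w⁻¹) := by
    rw [nn, inv_neg, inv_inv, neg_neg]
  have h2 : x k (-w⁻¹) * x k 1 = x k 1 * x k (-w⁻¹) := by
    rw [← h.add, ← h.add, add_comm]
  obtain ⟨u', h3⟩ := hw 1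
  have e2 : nn C.neg x k (-w⁻¹) * x k 1 * (nn C.neg x k (-w⁻¹))⁻¹ = x k (-w⁻¹ + u' + w⁻¹) := by
    rw [e1]
    calc x k (-w⁻¹) * x (C.neg k) w * x k (-w⁻¹) * x k 1 *
          (x k (-w⁻¹) * x (C.neg k) w * x k (-w⁻¹))⁻¹
        = x k (-w⁻¹) * x (C.neg k) w * (x k (-w⁻¹) * x k 1 * (x k (-w⁻¹))⁻¹) *
          (x (C.neg k) w)⁻¹ * (x k (-w⁻¹))⁻¹ := by group
      _ = x k (-w⁻¹) * (x (C.neg k) w * x k 1 * (x (C.neg k) w)⁻¹) * (x k (-w⁻¹))⁻¹ := by
          rw [h2]; group
      _ = _ := by rw [h3, ← h.x_neg, neg_neg, ← h.add, ← h.add]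
  rw [e2, C.s_self] at h1
  have h4 := (h.x_ne_opp h1).2
  rw [mul_one] at h4
  exact mul_ne_zero (left_ne_zero_of_mul_eq_one hc) (zpow_ne_zero _ hti) h4

variable [Finite F]

/-- the action of an automorphism on opposite root subgroups -/
theorem aut_pair {e : MulAut L} {k k' : ι} (h1 : ∀ t, ∃ t', e (x k t) = x k' t')
    (h2 : ∀ t, ∃ t', e (x (C.neg k) t) = x (C.neg k') t') :
    ∃ (σ : F ≃+* F) (c : F), c ≠ 0 ∧ ∀ t, e (x k t) = x k' (c * σ t) ∧
      e (x (C.neg k) t) = x (C.neg k') (c⁻¹ * σ t) := by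
  choose ψ hψ using h1
  choose φ hφ using h2
  have ψadd : ∀ a b, ψ (a + b) = ψ a + ψ b := fun a b => by
    apply h.x_inj (i := k')
    rw [← hψ, h.add, map_mul, hψ, hψ, h.add]
  have φadd : ∀ a b, φ (a + b) = φ a + φ b := fun a b => by
    apply h.x_inj (i := C.neg k')
    rw [← hφ, h.add, map_mul, hφ, hφ, h.add]
  have ψinj : Function.Injective ψ := fun a b hab => by
    apply h.x_inj (i := k)
    apply e.injective
    rw [hψ, hψ, hab]
  have φinj : Function.Injective φ := fun a b hab => by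
    apply h.x_inj (i := C.neg k)
    apply e.injective
    rw [hφ, hφ, hab]
  have φsurj := Finite.injective_iff_surjective.1 φinj
  have ψ0 : ψ 0 = 0 := by
    have := ψadd 0 0
    rw [add_zero] at this
    linear_combination -this
  have φneg : ∀ a, φ (-a) = -φ a := fun a => by
    have h5 : φ 0 = 0 := by
      have := φadd 0 0
      rw [add_zero] at this
      linear_combination -this
    have := φadd a (-a)
    rw [add_neg_cancel, h5] at this
    linear_combination -this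
  have hrel : ∀ t, t ≠ 0 → φ t⁻¹ = (ψ t)⁻¹ := by
    intro t ht
    obtain ⟨a, ha⟩ : ∃ a, a = ψ t := ⟨_, rfl⟩
    have ha0 : a ≠ 0 := by
      rw [ha]
      exact fun e0 => ht (ψinj (by rw [e0, ψ0]))
    obtain ⟨y, hy⟩ : ∃ y, y = φ (-t⁻¹) := ⟨_, rfl⟩
    have hen : e (nn C.neg x k t) = x k' a * x (C.neg k') y * x k' a := by
      rw [nn, map_mul, map_mul, hψ, hφ, ← ha, ← hy]
    -- the images
    have hA : ∀ v, ∃ v', x k' a * x (C.neg k') y * x k' a * x (C.neg k') v *
        (x k' a * x (C.neg k') y * x k' a)⁻¹ = x k' v' := by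
      intro v
      obtain ⟨u, rfl⟩ := φsurj v
      obtain ⟨c, -, hc⟩ := h.refl k k
      have h5 := (hc t u ht).2
      rw [C.s_self, C.neg_neg] at h5
      refine ⟨ψ (c * t ^ C.pr k k * u), ?_⟩
      rw [← hen, ← hφ, ← hψ, ← h5, map_mul, map_mul, map_inv]
    have hB : ∀ w, ∃ v, x k' a * x (C.neg k') (-a⁻¹) * x k' a * x (C.neg k') v *
        (x k' a * x (C.neg k') (-a⁻¹) * x k' a)⁻¹ = x k' w := by
      intro w
      obtain ⟨c, hcc, hc⟩ := h.refl k' k'
      have hc0 : c * a ^ C.pr k' k' ≠ 0 :=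
        mul_ne_zero (left_ne_zero_of_mul_eq_one hcc) (zpow_ne_zero _ ha0)
      refine ⟨(c * a ^ C.pr k' k')⁻¹ * w, ?_⟩
      have h5 := (hc a ((c * a ^ C.pr k' k')⁻¹ * w) ha0).2
      rw [C.s_self, C.neg_neg, mul_inv_cancel_left₀ hc0] at h5
      exact h5
    have hz : y + a⁻¹ = 0 := by
      apply h.norm_zero (k := k')
      intro w
      obtain ⟨v, hv⟩ := hB w
      obtain ⟨v', hv'⟩ := hA v
      refine ⟨v', ?_⟩
      have e1 : x (C.neg k') (y + a⁻¹) = x (C.neg k') y * (x (C.neg k') (-a⁻¹))⁻¹ := by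
        rw [← h.x_neg, neg_neg, h.add]
      have e2 : (x k' a)⁻¹ * x k' w * x k' a = x k' w := by
        rw [← h.x_neg, ← h.add, ← h.add]
        congr 1
        ring
      have e3 : (x k' a)⁻¹ * x k' v' * x k' a = x k' v' := by
        rw [← h.x_neg, ← h.add, ← h.add]
        congr 1
        ring
      have e4 : (x (C.neg k') (-a⁻¹))⁻¹ * x k' w * x (C.neg k') (-a⁻¹) =
          x k' a * x (C.neg k') v * (x k' a)⁻¹ := by
        rw [← e2, ← hv]
        group
      calc x (C.neg k') (y + a⁻¹) * x k' w * (x (C.neg k') (y + a⁻¹))⁻¹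
          = x (C.neg k') y * ((x (C.neg k') (-a⁻¹))⁻¹ * x k' w * x (C.neg k') (-a⁻¹)) *
            (x (C.neg k') y)⁻¹ := by rw [e1]; group
        _ = (x k' a)⁻¹ * (x k' a * x (C.neg k') y * x k' a * x (C.neg k') v *
              (x k' a * x (C.neg k') y * x k' a)⁻¹) * x k' a := by rw [e4]; group
        _ = x k' v' := by rw [hv', e3]
    rw [hy, φneg] at hz
    rw [← ha]
    linear_combination -hz
  obtain ⟨σ, c, hc, h5⟩ := hua ψ φ ψadd φadd ψinj hrel
  exact ⟨σ, c, hc, fun t => ⟨by rw [hψ, (h5 t).1], by rw [hφ, (h5 t).2]⟩⟩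

omit [Finite F] in
/-- the relation given by the torus -/
theorem torus_rel {e : MulAut L} {i k j l : ι} {σ τ : F ≃+* F} {c d : F} (hc : c ≠ 0) (hd : d ≠ 0)
    (h1 : ∀ t, e (x i t) = x k (c * σ t) ∧ e (x (C.neg i) t) = x (C.neg k) (c⁻¹ * σ t))
    (h2 : ∀ t, e (x j t) = x l (d * τ t)) {t : F} (ht : t ≠ 0) :
    τ t ^ C.pr j i = σ t ^ C.pr l k := by
  have hσ : ∀ s : F, s ≠ 0 → σ s ≠ 0 := fun s hs => by rwa [Ne, map_eq_zero_iff _ σ.injective]
  have hen : ∀ s : F, s ≠ 0 → e (nn C.neg x i s) = nn C.neg x k (c * σ s) := by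
    intro s hs
    rw [nn, nn, map_mul, map_mul, (h1 s).1, (h1 (-s⁻¹)).2]
    congr 3
    rw [map_neg, map_inv₀, mul_inv]
    ring
  have h3 := h.h_act i j ht 1
  have h4 := congrArg e h3
  rw [map_mul, map_mul, map_mul, map_inv, map_inv, map_mul, map_inv, hen t ht, hen 1 one_ne_zero, h2,
    h2] at h4
  simp only [map_one, mul_one] at h4
  have h5 := h.h_act k l (mul_ne_zero hc (hσ t ht)) (((c : F) ^ C.pr l k)⁻¹ * d)
  have h6 := h.h_act k l hc ((((c : F) ^ C.pr l k)⁻¹ * d))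
  rw [mul_inv_cancel_left₀ (zpow_ne_zero _ hc)] at h6
  have e1 : nn C.neg x k (c * σ t) * (nn C.neg x k c)⁻¹ * x l d *
      (nn C.neg x k (c * σ t) * (nn C.neg x k c)⁻¹)⁻¹ =
      x l ((c * σ t) ^ C.pr l k * ((c ^ C.pr l k)⁻¹ * d)) := by
    rw [← h5, ← h6]
    group
  rw [e1] at h4
  have h7 := h.x_inj h4
  rw [mul_zpow, map_zpow₀] at h7
  have hcp := zpow_ne_zero (C.pr l k) hc
  have h8 : d * σ t ^ C.pr l k = d * τ t ^ C.pr j i := by
    rw [← h7]
    field_simp
  exact (mul_left_cancel₀ hd h8).symm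

end CS

end

end Vale.Agent.P240.R2.H986.X
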