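import Vale.Agent.P240.R2.H986.X.Stm4
import Vale.Agent.P240.R2.H684.X2
import Vale.Agent.P240.R2.H195.RigA

/-!
The opposite root system, factorizations, and the root subgroups of the simple roots.
-/

set_option autoImplicit false

namespace Vale.Agent.P240.R2.H986.X

open Subgroup Vale.Agent.P240.K Vale.Agent.P240.H195

section
variable {ι : Type*}

/-- the opposite root system -/
def RC.opp (C : RC ι) : RC ι where
  ht i := - C.ht i
  neg := C.neg
  s := C.s
  simp i := C.simp (C.neg i)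
  pr := C.pr
  cone := C.cone
  ht_ne i := neg_ne_zero.2 (C.ht_ne i)
  ht_neg i := by rw [C.ht_neg]
  neg_neg := C.neg_neg
  s_s := C.s_s
  s_self := C.s_self
  s_neg := C.s_neg
  neg_s := C.neg_s
  s_conj := C.s_conj
  simp_pos i hi := by
    have := C.simp_pos _ hi
    rwa [C.ht_neg] at this
  s_pos i j hi hj hne := by
    have h1 := C.s_pos (C.neg i) (C.neg j) hi (by rw [C.ht_neg]; exact hj)
      (fun h => hne (by rw [← C.neg_neg j, h, C.neg_neg]))
    rwa [C.neg_s, C.s_neg, C.ht_neg] at h1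
  cone_ht i j k hc hi hj := by
    have h1 := C.cone_ht _ _ _ (C.cone_neg _ _ _ hc) (by rw [C.ht_neg]; exact hi)
      (by rw [C.ht_neg]; exact hj)
    rw [C.ht_neg, C.ht_neg, C.ht_neg] at h1
    exact h1
  cone_simp i j k hi hj hne hc hk := by
    have h1 := C.cone_simp (C.neg i) (C.neg j) (C.neg k) hi (by rw [C.ht_neg]; exact hj)
      (fun h => hne (by rw [← C.neg_neg j, h, C.neg_neg])) (C.cone_neg _ _ _ hc)
    exact h1 (by rw [hk])
  cone_symm := C.cone_symm
  cone_neg := C.cone_neg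
  cone_mixed i j k hi hj hne hc := by
    have h1 := C.cone_neg _ _ _ hc
    exact C.cone_mixed (C.neg i) (C.neg j) (C.neg k) hi hj
      (fun h => hne (by rw [← C.neg_neg i, h, C.neg_neg])) h1
  pr_self := C.pr_self
  pr_neg := C.pr_neg
  neg_pr := C.neg_pr
  pr_s := C.pr_s
  long := by
    obtain ⟨l, hl, h1⟩ := C.long
    refine ⟨l.map C.neg, ?_, ?_⟩
    · intro i hi
      obtain ⟨k, hk, rfl⟩ := List.mem_map.1 hi
      rw [C.neg_neg]
      exact hl k hk
    · intro j hj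
      have h2 : ∀ l : List ι, ∀ j, (l.map C.neg).foldr C.s j = l.foldr C.s j := by
        intro l
        induction l with
        | nil => intro j; rfl
        | cons a l ih => intro j; rw [List.map_cons, List.foldr_cons, List.foldr_cons, ih, C.neg_s]
      have h3 : ∀ l : List ι, ∀ j, l.foldr C.s (C.neg j) = C.neg (l.foldr C.s j) := by
        intro l
        induction l with
        | nil => intro j; rfl
        | cons a l ih => intro j; rw [List.foldr_cons, List.foldr_cons, ih, C.s_neg]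
      have h4 := h1 (C.neg j) (by rw [C.ht_neg]; exact hj)
      rw [h3, C.ht_neg] at h4
      rw [h2]
      exact h4
  gen p h1 h2 j := by
    have h3 := C.gen (fun k => p (C.neg k)) (fun i hi => h1 _ (by rw [C.neg_neg]; exact hi))
      (fun i k hi hk => by
        have h4 := h2 (C.neg i) (C.neg k) (by rw [C.neg_neg]; exact hi) hk
        rwa [C.neg_s, C.s_neg] at h4) (C.neg j)
    rwa [C.neg_neg] at h3
  conn p h1 h2 j hj := by
    obtain ⟨i, hi, hpi⟩ := h1
    have h3 := C.conn (fun k => p (C.neg k)) ⟨C.neg i, hi, by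
      show p (C.neg (C.neg i))
      rw [C.neg_neg]; exact hpi⟩
      (fun a b ha hb hpa hab => h2 (C.neg a) (C.neg b) (by rw [C.neg_neg]; exact ha)
        (by rw [C.neg_neg]; exact hb) hpa (by rw [C.pr_neg, C.neg_pr, _root_.neg_neg]; exact hab))
      (C.neg j) hj
    change p (C.neg (C.neg j)) at h3
    rwa [C.neg_neg] at h3
  adj i j hi hj hne hp := by
    have h1 := C.adj (C.neg i) (C.neg j) hi hj
      (fun h => hne (by rw [← C.neg_neg i, h, C.neg_neg])) (by
        rw [C.pr_neg, C.neg_pr, _root_.neg_neg]; exact hp)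
    rw [C.neg_s, C.s_neg, C.pr_neg, C.neg_pr, C.pr_neg, C.neg_pr, _root_.neg_neg,
      _root_.neg_neg] at h1
    refine ⟨fun h => h1.1 (by rw [h]), h1.2⟩
  pr_bd i j hi hj hne := by
    have h1 := C.pr_bd (C.neg i) (C.neg j) hi hj
      (fun h => hne (by rw [← C.neg_neg i, h, C.neg_neg]))
    rwa [C.pr_neg, C.neg_pr, _root_.neg_neg] at h1
  pr_zero := C.pr_zero
  s_fix := C.s_fix
  ex := by
    obtain ⟨i, hi⟩ := C.ex
    exact ⟨C.neg i, by rw [C.neg_neg]; exact hi⟩

end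

section
variable {ι : Type*} {F : Type*} [Field F] {L : Type*} [Group L] {C : RC ι} {x : ι → F → L}

lemma UU_opp : UU C.opp x = UM C x := by
  unfold UU UM
  congr 1
  funext i
  exact propext neg_pos

lemma UM_opp : UM C.opp x = UU C x := by
  unfold UU UM
  congr 1
  funext i
  exact propext neg_lt_zero

lemma TT_opp : TT C.opp x = TT C x := rfl

lemma nn_opp (i : ι) (t : F) : nn C.opp.neg x i t = nn C.neg x i t := rfl

theorem CS.opp' (h : CS C x) : CS C.opp x where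
  add := h.add
  inj := h.inj
  comm := h.comm
  refl := h.refl
  gen := h.gen
  opp := by
    have h1 := h.opp
    rw [inf_comm] at h1
    have e1 : UU C.opp x = UM C x := UU_opp
    have e2 : UM C.opp x = UU C x := UM_opp
    have e3 : UM C x ⊓ UU C x = ⊥ := h1
    have e4 : UU C.opp x ⊓ UM C.opp x = ⊥ := by rw [e1, e2, e3]
    exact e4

namespace CS

variable (h : CS C x)
include h

/-- `x_i(t)` normalizes the group generated by the other positive root elements, `i` simple -/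
lemma conj_simple {i : ι} (hi : C.simp i) (t : F) {v : L}
    (hv : v ∈ gr x (fun j => 0 < C.ht j ∧ j ≠ i)) :
    x i t * v * (x i t)⁻¹ ∈ gr x (fun j => 0 < C.ht j ∧ j ≠ i) := by
  refine closure_induction (p := fun v _ => x i t * v * (x i t)⁻¹ ∈
    gr x (fun j => 0 < C.ht j ∧ j ≠ i)) ?_ ?_ ?_ ?_ hv
  · rintro _ ⟨j, u, ⟨hj, hji⟩, rfl⟩
    have hip := C.simp_pos i hi
    have h1 := h.comm i j hji.symm (fun e => by
      have := C.ht_neg j
      rw [← e] at this
      omega) t u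
    have h2 : gr x (C.cone i j) ≤ gr x (fun j => 0 < C.ht j ∧ j ≠ i) := by
      refine closure_mono ?_
      rintro _ ⟨k, w, hk, rfl⟩
      have h3 := C.cone_ht i j k hk hip hj
      exact ⟨k, w, ⟨by omega, C.cone_simp i j k hi hj hji hk⟩, rfl⟩
    have e1 : x i t * x j u * (x i t)⁻¹ = (x i t * x j u * (x i t)⁻¹ * (x j u)⁻¹) * x j u := by group
    rw [e1]
    exact mul_mem (h2 h1) (x_mem_gr (p := fun j => 0 < C.ht j ∧ j ≠ i) ⟨hj, hji⟩ u)
  · simp
  · intro a b _ _ h1 h2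
    have e1 : x i t * (a * b) * (x i t)⁻¹ = (x i t * a * (x i t)⁻¹) * (x i t * b * (x i t)⁻¹) := by
      group
    rw [e1]
    exact mul_mem h1 h2
  · intro a _ h1
    have e1 : x i t * a⁻¹ * (x i t)⁻¹ = (x i t * a * (x i t)⁻¹)⁻¹ := by group
    rw [e1]
    exact inv_mem h1

/-- `U = U_i X_i` -/
lemma fac {i : ι} (hi : C.simp i) {u : L} (hu : u ∈ UU C x) :
    ∃ v ∈ gr x (fun j => 0 < C.ht j ∧ j ≠ i), ∃ t : F, u = v * x i t := by
  have step : ∀ (j : ι) (w : F), 0 < C.ht j → ∀ y : L,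
      (∃ v ∈ gr x (fun j => 0 < C.ht j ∧ j ≠ i), ∃ t : F, y = v * x i t) →
      ∃ v ∈ gr x (fun j => 0 < C.ht j ∧ j ≠ i), ∃ t : F, x j w * y = v * x i t := by
    rintro j w hj _ ⟨v, hv, t, rfl⟩
    by_cases hji : j = i
    · subst hji
      refine ⟨x j w * v * (x j w)⁻¹, h.conj_simple hi w hv, w + t, ?_⟩
      rw [h.add]
      group
    · exact ⟨x j w * v, mul_mem (x_mem_gr (p := fun j => 0 < C.ht j ∧ j ≠ i) ⟨hj, hji⟩ w) hv, t,
        by group⟩
  refine closure_induction_left (p := fun u _ => ∃ v ∈ gr x (fun j => 0 < C.ht j ∧ j ≠ i),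
    ∃ t : F, u = v * x i t) ⟨1, one_mem _, 0, by rw [h.x_zero, one_mul]⟩ ?_ ?_ hu
  · rintro _ ⟨j, w, hj, rfl⟩ y _ hy
    exact step j w hj y hy
  · rintro _ ⟨j, w, hj, rfl⟩ y _ hy
    rw [← h.x_neg]
    exact step j (-w) hj y hy

/-- `U⁻ = U⁻_i X_{-i}` -/
lemma fac_opp {i : ι} (hi : C.simp i) {u : L} (hu : u ∈ UM C x) :
    ∃ v ∈ gr x (fun j => C.ht j < 0 ∧ j ≠ C.neg i), ∃ t : F, u = v * x (C.neg i) t := by
  rw [← UU_opp] at hu
  obtain ⟨v, hv, t, h1⟩ := h.opp'.fac (i := C.neg i) (by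
    show C.simp (C.neg (C.neg i))
    rw [C.neg_neg]
    exact hi) hu
  refine ⟨v, ?_, t, h1⟩
  have e1 : (fun j => 0 < C.opp.ht j ∧ j ≠ C.neg i) = fun j => C.ht j < 0 ∧ j ≠ C.neg i := by
    funext j
    exact propext (and_congr neg_pos Iff.rfl)
  rwa [e1] at hv

/-- the inverse of `nl l` -/
lemma nl_inv_conj_gr {p q : ι → Prop} {l : List ι} (hpq : ∀ i, p i → q (wl C l.reverse i)) {u : L}
    (hu : u ∈ gr x p) : (nl C x l)⁻¹ * u * nl C x l ∈ gr x q := by
  refine closure_induction (p := fun u _ => (nl C x l)⁻¹ * u * nl C x l ∈ gr x q) ?_ ?_ ?_ ?_ hu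
  · rintro _ ⟨i, v, hi, rfl⟩
    obtain ⟨c, hc, h1⟩ := h.nl_act l (wl C l.reverse i)
    have h2 := h1 (c⁻¹ * v)
    rw [wl_rev', mul_inv_cancel_left₀ hc] at h2
    have e1 : (nl C x l)⁻¹ * x i v * nl C x l = x (wl C l.reverse i) (c⁻¹ * v) := by
      rw [← h2]; group
    rw [e1]
    exact x_mem_gr (hpq i hi) _
  · simp
  · intro a b _ _ h1 h2
    have e1 : (nl C x l)⁻¹ * (a * b) * nl C x l =
        ((nl C x l)⁻¹ * a * nl C x l) * ((nl C x l)⁻¹ * b * nl C x l) := by group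
    rw [e1]
    exact mul_mem h1 h2
  · intro a _ h1
    have e1 : (nl C x l)⁻¹ * a⁻¹ * nl C x l = ((nl C x l)⁻¹ * a * nl C x l)⁻¹ := by group
    rw [e1]
    exact inv_mem h1

variable {l : List ι} (hl : ∀ j, 0 < C.ht j → C.ht (wl C l j) < 0)

omit h in
include hl in
lemma long_rev (j : ι) (hj : C.ht j < 0) : 0 < C.ht (wl C l.reverse j) := by
  by_contra hcon
  have h1 := C.ht_ne (wl C l.reverse j)
  have h2 := hl (C.neg (wl C l.reverse j)) (by rw [C.ht_neg]; omega)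
  rw [wl_neg, wl_rev', C.ht_neg] at h2
  omega

include hl in
/-- `n₀ U n₀⁻¹ = U⁻` -/
lemma cj_UU : cj (nl C x l) (UU C x) = UM C x := by
  ext u
  rw [mem_cj]
  constructor
  · intro hu
    have h1 := h.nl_conj_gr (q := fun i => C.ht i < 0) (l := l) (fun i hi => hl i hi) hu
    have e1 : nl C x l * ((nl C x l)⁻¹ * u * nl C x l) * (nl C x l)⁻¹ = u := by group
    rwa [e1] at h1
  · intro hu
    exact h.nl_inv_conj_gr (q := fun i => 0 < C.ht i) (fun i hi => long_rev hl i hi) hu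

omit hl in
lemma nl_inv_conj_T (l : List ι) {g : L} (hg : g ∈ TT C x) : (nl C x l)⁻¹ * g * nl C x l ∈ TT C x := by
  induction l generalizing g with
  | nil => simpa [nl_nil] using hg
  | cons i l ih =>
    rw [nl_cons]
    have e1 : (nn C.neg x i 1 * nl C x l)⁻¹ * g * (nn C.neg x i 1 * nl C x l) =
        (nl C x l)⁻¹ * ((nn C.neg x i 1)⁻¹ * g * nn C.neg x i 1) * nl C x l := by group
    rw [e1]
    refine ih ?_
    have h1 := h.nn_conj_T i (v := -1) (neg_ne_zero.2 one_ne_zero) hg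
    rw [← h.nn_inv, inv_inv] at h1
    exact h1

omit hl in
lemma cj_TT : cj (nl C x l) (TT C x) = TT C x := by
  refine le_antisymm ?_ ?_
  · intro u hu
    rw [mem_cj] at hu
    have h1 := h.nl_conj_T l hu
    have e1 : nl C x l * ((nl C x l)⁻¹ * u * nl C x l) * (nl C x l)⁻¹ = u := by group
    rwa [e1] at h1
  · intro u hu
    rw [mem_cj]
    exact h.nl_inv_conj_T l hu

include hl in
/-- `n₀ B n₀⁻¹ = U⁻ T` -/
lemma cj_BB : cj (nl C x l) (BB C x) = BB C.opp x := by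
  show (UU C x ⊔ TT C x).map (MulAut.conj (nl C x l)).toMonoidHom = UU C.opp x ⊔ TT C.opp x
  rw [Subgroup.map_sup, UU_opp, TT_opp]
  have h1 := h.cj_UU hl
  have h2 := h.cj_TT (l := l)
  change (UU C x).map (MulAut.conj (nl C x l)).toMonoidHom = UM C x at h1
  change (TT C x).map (MulAut.conj (nl C x l)).toMonoidHom = TT C x at h2
  rw [h1, h2]

include hl in
lemma hopp (y : L) (hy : y ∈ UU C x) (hny : nl C x l * y * (nl C x l)⁻¹ ∈ UU C x) : y = 1 := by
  have h1 := h.nl_conj_gr (q := fun i => C.ht i < 0) (l := l) (fun i hi => hl i hi) hy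
  have h2 : nl C x l * y * (nl C x l)⁻¹ ∈ UU C x ⊓ UM C x := ⟨hny, h1⟩
  rw [show UU C x ⊓ UM C x = ⊥ from h.opp, mem_bot] at h2
  have e1 : y = (nl C x l)⁻¹ * (nl C x l * y * (nl C x l)⁻¹) * nl C x l := by group
  rw [e1, h2]
  group

omit hl in
lemma x_par {i : ι} (hi : C.simp i) (t : F) : x (C.neg i) t ∈ Par (BB C x) (nn C.neg x i 1) := by
  obtain ⟨c, hc, h1⟩ := h.nl_act [i] i
  have h2 := h1 (c⁻¹ * t)
  rw [wl_cons, wl_nil, C.s_self, mul_inv_cancel_left₀ hc, nl_cons, nl_nil, mul_one] at h2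
  rw [← h2]
  exact mul_mem (mul_mem self_mem_Par (le_Par (UU_le (x_mem_UU (C.simp_pos i hi) _))))
    (inv_mem self_mem_Par)

variable [Finite L] {r : ℕ} (hr : r.Prime) (hb : SB r (BB C x) (NN C x) (UU C x) (SS C x))
  (hp : IsPGroup r (UM C x))

omit hl in
include hr hb hp in
lemma eq_one_of_BB_UM {y : L} (hy : y ∈ BB C x) (hyU : y ∈ UM C x) : y = 1 := by
  obtain ⟨k, hk⟩ := hp ⟨y, hyU⟩
  have hk' : y ^ r ^ k = 1 := congrArg Subtype.val hk
  have h1 : y ∈ UU C x ⊓ UM C x := ⟨hb.mem_U hr hy hk', hyU⟩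
  rwa [show UU C x ⊓ UM C x = ⊥ from h.opp, mem_bot] at h1

include hr hb hp hl in
/-- the opposite root subgroup -/
theorem root_eq (hls : ∀ i ∈ l, C.simp i) {i : ι} (hi : C.simp i) {y : L}
    (hy : y ∈ Par (BB C x) (nn C.neg x i 1)) (hyU : y ∈ UM C x) : ∃ t, y = x (C.neg i) t := by
  obtain ⟨v, hv, t, rfl⟩ := h.fac_opp hi hyU
  refine ⟨t, ?_⟩
  have hs : nn C.neg x i 1 ∈ SS C x := ⟨i, hi, rfl⟩
  have h1 : (nl C x l)⁻¹ * (v * x (C.neg i) t) * nl C x l ∈ UU C x := by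
    have h2 := hyU
    rw [← h.cj_UU hl, mem_cj] at h2
    exact h2
  have h2 := hb.opp_conj hr (nl_mem (x := x) hls) (h.hopp hl) hs hy h1
  obtain ⟨c, hc, h3⟩ := h.nl_act [i] i
  have h4 := h3 (c⁻¹ * t)
  rw [wl_cons, wl_nil, C.s_self, mul_inv_cancel_left₀ hc, nl_cons, nl_nil, mul_one] at h4
  have e1 : (nn C.neg x i 1)⁻¹ * (v * x (C.neg i) t) * nn C.neg x i 1 =
      ((nn C.neg x i 1)⁻¹ * v * nn C.neg x i 1) * x i (c⁻¹ * t) := by rw [← h4]; group
  rw [e1] at h2
  have h5 : (nn C.neg x i 1)⁻¹ * v * nn C.neg x i 1 ∈ BB C x := by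
    have h6 := mul_mem h2 (inv_mem (UU_le (x_mem_UU (x := x) (C.simp_pos i hi) (c⁻¹ * t))))
    rwa [mul_inv_cancel_right] at h6
  have h6 : (nn C.neg x i 1)⁻¹ * v * nn C.neg x i 1 ∈ UM C x := by
    have h7 := h.nl_inv_conj_gr (q := fun i => C.ht i < 0) (l := [i]) (fun j hj => by
      rw [List.reverse_singleton, wl_cons, wl_nil]
      have h8 := C.s_pos i (C.neg j) hi (by rw [C.ht_neg]; omega)
        (fun e => hj.2 (by rw [← e, C.neg_neg]))
      rw [C.s_neg, C.ht_neg] at h8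
      omega) hv
    rwa [nl_cons, nl_nil, mul_one] at h7
  have h7 := h.eq_one_of_BB_UM hr hb hp h5 h6
  have h8 : v = 1 := by
    have : v = nn C.neg x i 1 * ((nn C.neg x i 1)⁻¹ * v * nn C.neg x i 1) * (nn C.neg x i 1)⁻¹ := by
      group
    rw [this, h7]
    group
  rw [h8, one_mul]

end CS

end

end Vale.Agent.P240.R2.H986.X
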