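import Mathlib.LinearAlgebra.Matrix.Cartan
import Mathlib.LinearAlgebra.RootSystem.CartanMatrix
import Vale.Agent.P240.H195.Defs

/-!
Chevalley groups given by root elements and Chevalley's relations.
-/

set_option autoImplicit false

namespace Vale.Agent.P240.R2.H986.X

open Subgroup

/-- the combinatorics of a root system with a base: heights, negatives, reflections `s i j = s_i(j)`,
simple roots, the numbers `pr j i = ⟨j, i^∨⟩`, and the relation `cone i j k`: `k = m i + n j` with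
positive integers `m`, `n`. -/
structure RC (ι : Type*) where
  ht : ι → ℤ
  neg : ι → ι
  s : ι → ι → ι
  simp : ι → Prop
  pr : ι → ι → ℤ
  cone : ι → ι → ι → Prop
  ht_ne : ∀ i, ht i ≠ 0
  ht_neg : ∀ i, ht (neg i) = - ht i
  neg_neg : ∀ i, neg (neg i) = i
  s_s : ∀ i j, s i (s i j) = j
  s_self : ∀ i, s i i = neg i
  s_neg : ∀ i j, s i (neg j) = neg (s i j)
  neg_s : ∀ i j, s (neg i) j = s i j
  s_conj : ∀ i j k, s (s i j) k = s i (s j (s i k))
  simp_pos : ∀ i, simp i → 0 < ht i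
  s_pos : ∀ i j, simp i → 0 < ht j → j ≠ i → 0 < ht (s i j)
  cone_ht : ∀ i j k, cone i j k → 0 < ht i → 0 < ht j → ht i < ht k ∧ ht j < ht k
  cone_simp : ∀ i j k, simp i → 0 < ht j → j ≠ i → cone i j k → k ≠ i
  cone_symm : ∀ i j k, cone i j k → cone j i k
  cone_neg : ∀ i j k, cone i j k → cone (neg i) (neg j) (neg k)
  cone_mixed : ∀ i j k, simp i → simp j → i ≠ j → ¬ cone (neg i) j k
  pr_self : ∀ i, pr i i = 2
  pr_neg : ∀ i j, pr (neg j) i = - pr j i
  neg_pr : ∀ i j, pr j (neg i) = - pr j i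
  pr_s : ∀ i j, pr (s i j) i = - pr j i
  long : ∃ l : List ι, (∀ i ∈ l, simp i) ∧ ∀ j, 0 < ht j → ht (l.foldr s j) < 0
  gen : ∀ p : ι → Prop, (∀ i, simp i → p i) → (∀ i j, simp i → p j → p (s i j)) → ∀ j, p j
  conn : ∀ p : ι → Prop, (∃ i, simp i ∧ p i) →
    (∀ i j, simp i → simp j → p i → pr j i ≠ 0 → p j) → ∀ j, simp j → p j
  adj : ∀ i j, simp i → simp j → i ≠ j → pr j i ≠ 0 → s i j ≠ j ∧ (pr j i = -1 ∨ pr i j = -1)
  pr_bd : ∀ i j, simp i → simp j → i ≠ j → -3 ≤ pr j i ∧ pr j i ≤ 0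
  pr_zero : ∀ i j, pr j i = 0 ↔ pr i j = 0
  s_fix : ∀ i j, pr j i = 0 → s i j = j
  ex : ∃ i, simp i

section
variable {ι : Type*} {F : Type*} [Field F] {L : Type*} [Group L]

/-- `n_i(t) = x_i(t) x_{-i}(-t⁻¹) x_i(t)` -/
def nn (neg : ι → ι) (x : ι → F → L) (i : ι) (t : F) : L := x i t * x (neg i) (-t⁻¹) * x i t

/-- the subgroup generated by the root elements `x i t` with `p i` -/
def gr (x : ι → F → L) (p : ι → Prop) : Subgroup L := closure {g | ∃ i t, p i ∧ g = x i t}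

/-- Chevalley's relations (abstract form) -/
structure CS (C : RC ι) (x : ι → F → L) : Prop where
  add : ∀ i t u, x i (t + u) = x i t * x i u
  inj : ∀ i t, x i t = 1 → t = 0
  comm : ∀ i j, i ≠ j → i ≠ C.neg j → ∀ t u,
    x i t * x j u * (x i t)⁻¹ * (x j u)⁻¹ ∈ gr x (C.cone i j)
  refl : ∀ i j, ∃ c : F, c * c = 1 ∧ ∀ t u : F, t ≠ 0 →
    nn C.neg x i t * x j u * (nn C.neg x i t)⁻¹ = x (C.s i j) (c * t ^ (-C.pr j i) * u) ∧
    nn C.neg x i t * x (C.neg j) u * (nn C.neg x i t)⁻¹ = x (C.neg (C.s i j)) (c * t ^ C.pr j i * u)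
  gen : gr x (fun _ => True) = ⊤
  opp : gr x (fun i => 0 < C.ht i) ⊓ gr x (fun i => C.ht i < 0) = ⊥

end

section
variable {ι M N : Type*} [AddCommGroup M] [Module ℚ M] [AddCommGroup N] [Module ℚ N]

/-- The elements `x i t` (`i` a root, `t ∈ F`) of the group `L` generate `L` and satisfy Chevalley's
relations for the root system `P`: here `n_i(t) = x_i(t) x_{-i}(-t⁻¹) x_i(t)`, and `U` and `U⁻` are
generated by the `x i t` where `i` is positive or negative, respectively. -/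
structure ChevRel (P : RootPairing ι ℚ M N) [P.IsCrystallographic] (b : P.Base) {F : Type*} [Field F]
    {L : Type*} [Group L] (x : ι → F → L) : Prop where
  /-- `x_i(t + u) = x_i(t) x_i(u)` -/
  add : ∀ i t u, x i (t + u) = x i t * x i u
  inj : ∀ i t, x i t = 1 → t = 0
  /-- `[x_i(t), x_j(u)]` is a product of elements `x_k(v)` with `k = m i + n j`, `m, n > 0` -/
  comm : ∀ i j, i ≠ j → i ≠ P.reflectionPerm j j → ∀ t u,
    x i t * x j u * (x i t)⁻¹ * (x j u)⁻¹ ∈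
    gr x (fun k => ∃ m n : ℕ, 0 < m ∧ 0 < n ∧ P.root k = m • P.root i + n • P.root j)
  /-- `n_i(t) x_j(u) n_i(t)⁻¹ = x_k(c t ^ (-⟨j, i^∨⟩) u)`, `k = s_i(j)`, `c = c(i, j) = c(i, -j) = ±1` -/
  refl : ∀ i j, ∃ c : F, c * c = 1 ∧ ∀ t u : F, t ≠ 0 →
    nn (fun i => P.reflectionPerm i i) x i t * x j u *
        (nn (fun i => P.reflectionPerm i i) x i t)⁻¹ =
      x (P.reflectionPerm i j) (c * t ^ (-P.pairingIn ℤ j i) * u) ∧
    nn (fun i => P.reflectionPerm i i) x i t * x (P.reflectionPerm j j) u *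
        (nn (fun i => P.reflectionPerm i i) x i t)⁻¹ =
      x (P.reflectionPerm (P.reflectionPerm i j) (P.reflectionPerm i j))
        (c * t ^ P.pairingIn ℤ j i * u)
  gen : gr x (fun _ => True) = ⊤
  /-- `U ∩ U⁻ = 1` -/
  opp : gr x (fun i => 0 < b.height i) ⊓ gr x (fun i => b.height i < 0) = ⊥

end

end Vale.Agent.P240.R2.H986.X
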