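import Vale.Agent.P240.R2.H986.X.X4
import Vale.Agent.P240.R2.H164.EX2

/-!
Odd characteristic: the parities of the Cartan integers are preserved (this excludes the flip of the
diagram `F₄`).
-/

set_option autoImplicit false

namespace Vale.Agent.P240.R2.H986.X

open Subgroup Vale.Agent.P240.K Vale.Agent.P240.H195 Vale.Agent.P240.R2.H164.EX
  Vale.Agent.P240.R2.H997

universe u

section
variable {ι : Type*} {F : Type*} [Field F] {L : Type u} [Group L] {C : RC ι} {x : ι → F → L}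

namespace CS

variable (h : CS C x)
include h

variable [Finite L] [Finite F] {r : ℕ} (hr : r.Prime)
  (hb : SB r (BB C x) (NN C x) (UU C x) (SS C x))
  (hb' : SB r (BB C.opp x) (NN C.opp x) (UU C.opp x) (SS C.opp x))
  (hp : IsPGroup r (UM C x)) (hp' : IsPGroup r (UU C x))
include hr hb hb' hp hp'

/-- the parities of the Cartan integers are preserved in odd characteristic -/
theorem x4p {e : MulAut L} (heB : am e (BB C x) = BB C x)
    (heO : am e (BB C.opp x) = BB C.opp x) :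
    ∃ π : Equiv.Perm {i // C.simp i},
      (∀ i, am e (Par (BB C x) (nn C.neg x i.1 1)) = Par (BB C x) (nn C.neg x (π i).1 1)) ∧
      (∀ i j, C.pr i.1 j.1 = 0 ↔ C.pr (π i).1 (π j).1 = 0) ∧
      ((2 : F) ≠ 0 → ∀ i j, Even (C.pr i.1 j.1) ↔ Even (C.pr (π i).1 (π j).1)) ∧
      ∀ n : ℕ, e ^ n = 1 → π ^ n = 1 := by
  obtain ⟨π, h1, h2, h3, σ, c, hc⟩ := h.x4b' hr hb hb' hp hp' heB heO
  refine ⟨π, h1, h2, ?_, h3⟩
  intro h20 i j
  have h5 := h.torus_rel (hc j).1 (hc i).1 (hc j).2 (fun t => ((hc i).2 t).1)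
    (t := -1) (neg_ne_zero.2 one_ne_zero)
  rw [map_neg, map_one, map_neg, map_one] at h5
  have hne : (-1 : F) ≠ 1 := by
    intro e0
    apply h20
    linear_combination -e0
  constructor
  · intro he
    rw [he.neg_one_zpow] at h5
    by_contra hodd
    rw [Int.not_even_iff_odd] at hodd
    rw [hodd.neg_one_zpow] at h5
    exact hne h5.symm
  · intro he
    rw [he.neg_one_zpow] at h5
    by_contra hodd
    rw [Int.not_even_iff_odd] at hodd
    rw [hodd.neg_one_zpow] at h5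
    exact hne h5

end CS

end

open scoped Classical in
/-- **X4'** with the additional condition on parities. -/
def StmtX4p : Prop := ∀ (ι : Type) [Finite ι] (F : Type) [Field F] [Finite F] (L : Type u) [Group L]
  [Finite L] (r : ℕ) [Fact r.Prime] [CharP F r] (C : RC ι) (x : ι → F → L), CS C x →
  IsSimpleGroup L → (∀ g : L, (∀ y, g * y = y * g) → g = 1) → ∀ d : ℕ,
  (∃ D : ι → ι → ℤ, ∃ Δ : Finset ι, (∀ i, i ∈ Δ ↔ C.simp i) ∧
    ∀ i j, C.simp i → C.simp j → ∑ k ∈ Δ, D i k * C.pr j k = if i = j then (d : ℤ) else 0) →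
  ∀ p : ℕ, p.Prime → p ≠ r → Nat.Coprime p d → Nat.Coprime p (Nat.totient d) →
  -- permutations of the diagram
  (∀ π : Equiv.Perm {i // C.simp i}, (∃ k, π ^ p ^ k = 1) →
    (∀ i j, C.pr i.1 j.1 = 0 ↔ C.pr (π i).1 (π j).1 = 0) →
    (r ≠ 2 → ∀ i j, Even (C.pr i.1 j.1) ↔ Even (C.pr (π i).1 (π j).1)) → π = 1) →
  FewAut p L

theorem stmtX4p : StmtX4p.{u} := by
  intro ι _ F _ _ L _ _ r _ _ C x h hsimple hcen d ⟨D, Δ, hΔ, hD⟩ p hp hpr hpd hpt hperm
  have hr : r.Prime := Fact.out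
  obtain ⟨hSB, hSB', hP, hP'⟩ := h.data (r := r) hcen
  obtain ⟨l, hls, hl⟩ := C.long
  have hn₀ : nl C x l ∈ NN C x := CS.nl_mem hls
  have hopp := opp_nl h hl
  have hnI : (MulAut.conj (G := L)).range.Normal := normal_conj
  have hcyc : IsCyclic (RingAut F) := ff_cyclic
  have hfin : Finite (RingAut F) := Finite.of_injective (fun f : RingAut F => (f : F → F))
    DFunLike.coe_injective
  -- normal form of an outer automorphism of order `p`
  have norm : ∀ f : MulAut L, OutAut p f → ∃ (e : MulAut L) (σ : RingAut F),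
      (e, σ) ∈ AG C x ∧ σ ^ p = 1 ∧ σ ≠ 1 ∧ e ∈ zpowers f ⊔ (MulAut.conj (G := L)).range ∧
      f ∈ zpowers e ⊔ (MulAut.conj (G := L)).range ∧ e ^ p ∈ (MulAut.conj (G := L)).range := by
    intro f hf
    obtain ⟨e, ⟨a, hea⟩, heB, heC, hef, hfe, hep, heI⟩ := exists_e hSB hr hp hn₀ hopp hf
    have heO : am e (BB C.opp x) = BB C.opp x := by
      rw [← h.cj_BB hl]
      exact heC
    obtain ⟨π, hπ1, hπ2, hπ3, hπ4⟩ := h.x4p hr hSB hSB' hP hP' heB heO
    have hπ : π = 1 := hperm π ⟨a, hπ4 _ hea⟩ hπ2 (fun hr2 => hπ3 (by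
      intro e0
      have h5 : ((2 : ℕ) : F) = 0 := by exact_mod_cast e0
      rw [CharP.cast_eq_zero_iff F r] at h5
      exact hr2 ((Nat.prime_dvd_prime_iff_eq hr Nat.prime_two).1 h5)))
    obtain ⟨σ, c, hc⟩ := h.x4a hr hSB hSB' hP hP' heB heO (by
      rintro s ⟨i, hi, rfl⟩
      have := hπ1 ⟨i, hi⟩
      rw [hπ] at this
      exact this)
    have hAG : (e, (σ : RingAut F)) ∈ AG C x := ⟨c, hc⟩
    have hAGp : (e ^ p, (σ : RingAut F) ^ p) ∈ AG C x := pow_mem hAG p
    obtain ⟨c', hc'⟩ := hAGp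
    have hσp : (σ : RingAut F) ^ p = 1 :=
      sigma_one hr h hSB hls hl hep (am_pow_eq heB p) (am_pow_eq heC p) hc'
    refine ⟨e, σ, hAG, hσp, ?_, hef, hfe, hep⟩
    rintro rfl
    exact heI (mem_of_two hpd hep (inner_pow h hΔ hD hc))
  have key : ∀ f g : MulAut L, OutAut p f → OutAut p g →
      g ∈ zpowers f ⊔ (MulAut.conj (G := L)).range := by
    intro f g hf hg
    obtain ⟨e, σ, hAG, hσp, hσ1, hef, -, hep⟩ := norm f hf
    obtain ⟨e', σ', hAG', hσp', -, -, hge, hep'⟩ := norm g hg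
    obtain ⟨k, hk⟩ := mem_zpowers_cyc hp hσp hσ1 hσp'
    have hk' : σ ^ k = σ' := hk
    -- the difference
    have hδ : (e' * (e ^ k)⁻¹, (1 : RingAut F)) ∈ AG C x := by
      have h1 := mul_mem hAG' (inv_mem (zpow_mem hAG k))
      have h2 : (e', σ') * ((e, σ) ^ k)⁻¹ = (e' * (e ^ k)⁻¹, (1 : RingAut F)) := by
        rw [Prod.ext_iff]
        refine ⟨rfl, ?_⟩
        change σ' * (σ ^ k)⁻¹ = 1
        rw [hk', mul_inv_cancel]
      rwa [h2] at h1
    obtain ⟨c, hc⟩ := hAG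
    obtain ⟨c', hc'⟩ := hδ
    have hδd := inner_pow h hΔ hD hc'
    obtain ⟨m, hm⟩ := ff_aut (r := r) σ
    have hconj := Al_conj h hc hc' hm
    set I := (MulAut.conj (G := L)).range with hI
    have hδ1 : ((e' * (e ^ k)⁻¹ : MulAut L) : MulAut L ⧸ I) = 1 := by
      refine eq_one_of_conj (a := (e : MulAut L ⧸ I)) (m := r ^ m) (k := k) hp ?_ ?_ ?_ ?_ hpd hpt
      · rw [← QuotientGroup.mk_pow]
        exact (QuotientGroup.eq_one_iff _).2 hep
      · rw [← QuotientGroup.mk_pow]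
        exact (QuotientGroup.eq_one_iff _).2 hδd
      · rw [← QuotientGroup.mk_mul, ← QuotientGroup.mk_inv, ← QuotientGroup.mk_mul,
          ← QuotientGroup.mk_pow, hconj]
      · rw [← QuotientGroup.mk_zpow, ← QuotientGroup.mk_mul, inv_mul_cancel_right,
          ← QuotientGroup.mk_pow]
        exact (QuotientGroup.eq_one_iff _).2 hep'
    have hδI := (QuotientGroup.eq_one_iff _).1 hδ1
    have he'e : e' ∈ zpowers e ⊔ I := by
      have h1 : e' = (e' * (e ^ k)⁻¹) * e ^ k := by rw [inv_mul_cancel_right]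
      rw [h1]
      exact mul_mem ((le_sup_right : I ≤ _) hδI)
        ((le_sup_left : zpowers e ≤ _) (zpow_mem (mem_zpowers e) k))
    have h1 : zpowers e ⊔ I ≤ zpowers f ⊔ I :=
      sup_le (by rw [zpowers_le]; exact hef) le_sup_right
    have h2 : zpowers e' ⊔ I ≤ zpowers f ⊔ I :=
      sup_le (by rw [zpowers_le]; exact h1 he'e) le_sup_right
    exact h2 hge
  exact ⟨fun f g _ hf hg _ => Or.inl (key f g hf hg), Or.inl fun f g hf hg => key f g hf hg⟩

end Vale.Agent.P240.R2.H986.X
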