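import Vale.Agent.P240.R2.H986.X.P3

/-!
`G₂` in characteristic `3`: few automorphisms of order `2`.
-/

set_option autoImplicit false

namespace Vale.Agent.P240.R2.H986.X

open Subgroup Vale.Agent.P240.K Vale.Agent.P240.H195 Vale.Agent.P240.R2.H164.EX
  Vale.Agent.P240.R2.H997

universe u

section
variable {F : Type*} [Field F] [Finite F]

/-- a field of characteristic three with a square root of the inverse of the Frobenius automorphism has
no automorphisms of order two -/
lemma no_two {r : ℕ} [Fact r.Prime] [CharP F r] {ψ : RingAut F} (hψ : ∀ t, ψ (ψ t) ^ r = t)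
    {τ : RingAut F} (h2 : τ ^ 2 = 1) : τ = 1 := by
  by_contra h1
  obtain ⟨n, k, hkn, hcard, hk, hdvd⟩ := ff_aut' (r := r) ψ
  have h3 : n ∣ 2 * k + 1 := by
    refine hdvd _ fun t => ?_
    have h4 := hψ t
    rw [hk, hk, ← pow_mul, ← pow_mul] at h4
    rw [two_mul, pow_succ, pow_add, mul_assoc]
    exact h4
  obtain ⟨m, hm, hcard', -⟩ := ff_quad (r := r) h1 h2
  have hr : r.Prime := Fact.out
  have h4 : n = m * 2 := by
    apply Nat.pow_right_injective hr.two_le
    change r ^ n = r ^ (m * 2)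
    rw [← hcard, hcard', pow_mul]
  have h5 : 2 ∣ 2 * k + 1 := (Dvd.intro_left m h4.symm).trans h3
  omega

end

section
variable {ι : Type*} {F : Type*} [Field F] {L : Type u} [Group L]

/-- the automorphism `e` exchanges the root subgroups for `a` and `b` -/
def Fl (C : RC ι) (x : ι → F → L) (a b : ι) (e : MulAut L) (σ τ : RingAut F) (c d : F) : Prop :=
  c ≠ 0 ∧ d ≠ 0 ∧
    (∀ t, e (x a t) = x b (c * σ t) ∧ e (x (C.neg a) t) = x (C.neg b) (c⁻¹ * σ t)) ∧
    ∀ t, e (x b t) = x a (d * τ t) ∧ e (x (C.neg b) t) = x (C.neg a) (d⁻¹ * τ t)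

variable {C : RC ι} {x : ι → F → L} {a b : ι}

open scoped Classical in
/-- the quotient of two such automorphisms -/
lemma Fl.div (hab : a ≠ b) (hs : ∀ i, C.simp i ↔ i = a ∨ i = b) {e e' : MulAut L}
    {σ τ : RingAut F} {c d c' d' : F} (h : Fl C x a b e σ τ c d) (h' : Fl C x a b e' σ τ c' d') :
    Al C x (e' * e⁻¹) (1 : RingAut F) (fun i => if i = b then c' * c⁻¹ else d' * d⁻¹) := by
  obtain ⟨hc, hd, h1, h2⟩ := h
  obtain ⟨hc', hd', h1', h2'⟩ := h'
  have key : ∀ (σ : RingAut F) (c : F), c ≠ 0 → ∀ t, ∃ s, c * σ s = t := by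
    intro σ c hc t
    refine ⟨σ⁻¹ (c⁻¹ * t), ?_⟩
    have : σ (σ⁻¹ (c⁻¹ * t)) = c⁻¹ * t := by
      rw [← RingAut.mul_apply, mul_inv_cancel, RingAut.one_apply]
    rw [this, mul_inv_cancel_left₀ hc]
  have inv_app : ∀ y z : L, e y = z → e⁻¹ z = y := by
    rintro y _ rfl
    rw [← MulAut.mul_apply, inv_mul_cancel, MulAut.one_apply]
  intro i hi
  rcases (hs i).1 hi with rfl | rfl
  · beta_reduce
    rw [if_neg hab]
    refine ⟨mul_ne_zero hd' (inv_ne_zero hd), fun t => ⟨?_, ?_⟩⟩
    · obtain ⟨s, rfl⟩ := key τ d hd t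
      rw [MulAut.mul_apply, inv_app _ _ (h2 s).1, (h2' s).1, RingAut.one_apply]
      congr 1
      field_simp
    · obtain ⟨s, rfl⟩ := key τ d⁻¹ (inv_ne_zero hd) t
      rw [MulAut.mul_apply, inv_app _ _ (h2 s).2, (h2' s).2, RingAut.one_apply]
      congr 1
      field_simp
  · beta_reduce
    rw [if_pos rfl]
    refine ⟨mul_ne_zero hc' (inv_ne_zero hc), fun t => ⟨?_, ?_⟩⟩
    · obtain ⟨s, rfl⟩ := key σ c hc t
      rw [MulAut.mul_apply, inv_app _ _ (h1 s).1, (h1' s).1, RingAut.one_apply]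
      congr 1
      field_simp
    · obtain ⟨s, rfl⟩ := key σ c⁻¹ (inv_ne_zero hc) t
      rw [MulAut.mul_apply, inv_app _ _ (h1 s).2, (h1' s).2, RingAut.one_apply]
      congr 1
      field_simp

open scoped Classical in
/-- the square of such an automorphism -/
lemma Fl.sq (hab : a ≠ b) (hs : ∀ i, C.simp i ↔ i = a ∨ i = b) {e : MulAut L}
    {σ τ : RingAut F} {c d : F} (h : Fl C x a b e σ τ c d) (hcomm : ∀ t, σ (τ t) = τ (σ t)) :
    Al C x (e ^ 2) (τ * σ) (fun i => if i = b then c * σ d else d * τ c) := by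
  obtain ⟨hc, hd, h1, h2⟩ := h
  intro i hi
  rcases (hs i).1 hi with rfl | rfl
  · beta_reduce
    rw [if_neg hab]
    refine ⟨mul_ne_zero hd ((map_ne_zero τ).2 hc), fun t => ⟨?_, ?_⟩⟩
    · rw [pow_two, MulAut.mul_apply, (h1 t).1, (h2 _).1, map_mul, RingAut.mul_apply, mul_assoc]
    · rw [pow_two, MulAut.mul_apply, (h1 t).2, (h2 _).2, map_mul, map_inv₀, RingAut.mul_apply,
        mul_inv, mul_assoc]
  · beta_reduce
    rw [if_pos rfl]
    refine ⟨mul_ne_zero hc ((map_ne_zero σ).2 hd), fun t => ⟨?_, ?_⟩⟩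
    · rw [pow_two, MulAut.mul_apply, (h2 t).1, (h1 _).1, map_mul, RingAut.mul_apply, mul_assoc,
        hcomm]
    · rw [pow_two, MulAut.mul_apply, (h2 t).2, (h1 _).2, map_mul, map_inv₀, RingAut.mul_apply,
        mul_inv, mul_assoc, hcomm]

end

/-- **`G₂` in characteristic three**: `FewAut 2`. -/
theorem few_G2_three (ι : Type) [Finite ι] (F : Type) [Field F] [Finite F] (L : Type u) [Group L]
    [Finite L] [CharP F 3] (C : RC ι) (x : ι → F → L) (h : CS C x)
    (hcen : ∀ g : L, (∀ y, g * y = y * g) → g = 1) {a b : ι} (hab : a ≠ b)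
    (hs : ∀ i, C.simp i ↔ i = a ∨ i = b) (hpab : C.pr a b = -1) (hpba : C.pr b a = -3) :
    FewAut 2 L := by
  classical
  have h3p : Fact (Nat.Prime 3) := ⟨Nat.prime_three⟩
  have hr : Nat.Prime 3 := Nat.prime_three
  obtain ⟨hSB, hSB', hP, hP'⟩ := h.data (r := 3) hcen
  obtain ⟨l, hls, hl⟩ := C.long
  have hn₀ : nl C x l ∈ NN C x := CS.nl_mem hls
  have hopp := opp_nl h hl
  have hnI : (MulAut.conj (G := L)).range.Normal := normal_conj
  have ha : C.simp a := (hs a).2 (Or.inl rfl)
  have hb : C.simp b := (hs b).2 (Or.inr rfl)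
  -- the torus
  have hinner : ∀ {e : MulAut L} {c : ι → F}, Al C x e (1 : RingAut F) c →
      e ∈ (MulAut.conj (G := L)).range := by
    intro e c he
    have h1 := inner_pow h (d := 1) (Δ := {a, b})
      (D := fun i k => if i = a then (if k = a then 2 else 3) else (if k = a then 1 else 2))
      (fun i => by rw [Finset.mem_insert, Finset.mem_singleton]; exact (hs i).symm)
      (fun i j hi hj => by
        rw [Finset.sum_pair hab]
        rcases (hs i).1 hi with rfl | rfl <;> rcases (hs j).1 hj with rfl | rfl <;>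
          simp [hab, hab.symm, hpab, hpba, C.pr_self]) he
    rwa [pow_one] at h1
  -- normal form
  have norm : ∀ f : MulAut L, OutAut 2 f → ∃ e : MulAut L,
      e ∈ zpowers f ⊔ (MulAut.conj (G := L)).range ∧
      f ∈ zpowers e ⊔ (MulAut.conj (G := L)).range ∧
      ((∃ (σ : RingAut F) (c : ι → F), Al C x e σ c ∧ σ ^ 2 = 1 ∧ σ ≠ 1) ∨
        ∃ (σ τ : RingAut F) (c d : F), Fl C x a b e σ τ c d ∧ (∀ t, σ t = τ t ^ 3) ∧
          ∀ t, τ (τ t) ^ 3 = t) := by
    intro f hf
    obtain ⟨e, -, heB, heC, hef, hfe, hep, heI⟩ := exists_e hSB hr Nat.prime_two hn₀ hopp hf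
    have heO : am e (BB C.opp x) = BB C.opp x := by
      rw [← h.cj_BB hl]
      exact heC
    refine ⟨e, hef, hfe, ?_⟩
    obtain ⟨π, hπ1, -, -, σ, c, hc⟩ := h.x4b' hr hSB hSB' hP hP' heB heO
    rcases (hs _).1 (π ⟨a, ha⟩).2 with hπa | hπa
    · -- the identity
      left
      have hπa' : π ⟨a, ha⟩ = ⟨a, ha⟩ := Subtype.ext hπa
      have hπb : (π ⟨b, hb⟩).1 = b := by
        rcases (hs _).1 (π ⟨b, hb⟩).2 with h5 | h5
        · exfalso
          have h6 : π ⟨b, hb⟩ = π ⟨a, ha⟩ := by rw [hπa']; exact Subtype.ext h5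
          exact hab (congrArg Subtype.val (π.injective h6)).symm
        · exact h5
      obtain ⟨σ, c, hc⟩ := h.x4a hr hSB hSB' hP hP' heB heO (by
        rintro s ⟨i, hi, rfl⟩
        rcases (hs i).1 hi with rfl | rfl
        · have h5 := hπ1 ⟨i, hi⟩
          rw [hπa] at h5
          exact h5
        · have h5 := hπ1 ⟨i, hi⟩
          rw [hπb] at h5
          exact h5)
      have hAGp : (e ^ 2, (σ : RingAut F) ^ 2) ∈ AG C x :=
        pow_mem (show (e, (σ : RingAut F)) ∈ AG C x from ⟨c, hc⟩) 2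
      obtain ⟨c', hc'⟩ := hAGp
      refine ⟨σ, c, hc, sigma_one hr h hSB hls hl hep (am_pow_eq heB 2) (am_pow_eq heC 2) hc', ?_⟩
      rintro rfl
      exact heI (hinner hc)
    · -- the flip
      right
      have hπb : (π ⟨b, hb⟩).1 = a := by
        rcases (hs _).1 (π ⟨b, hb⟩).2 with h5 | h5
        · exact h5
        · exfalso
          have h6 : π ⟨b, hb⟩ = π ⟨a, ha⟩ := Subtype.ext (h5.trans hπa.symm)
          exact hab (congrArg Subtype.val (π.injective h6)).symm
      have h1 := hc ⟨a, ha⟩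
      have h2 := hc ⟨b, hb⟩
      rw [hπa] at h1
      rw [hπb] at h2
      have hfl : Fl C x a b e (σ ⟨a, ha⟩) (σ ⟨b, hb⟩) (c ⟨a, ha⟩) (c ⟨b, hb⟩) :=
        ⟨h1.1, h2.1, h1.2, h2.2⟩
      have hfr : ∀ t, σ ⟨a, ha⟩ t = σ ⟨b, hb⟩ t ^ 3 := by
        intro t
        by_cases ht : t = 0
        · rw [ht, map_zero, map_zero, zero_pow (by norm_num)]
        · have h5 := h.torus_rel (i := a) (k := b) (j := b) (l := a) h1.1 h2.1 h1.2
            (fun t => (h2.2 t).1) ht
          rw [hpab, hpba, zpow_neg, zpow_neg, zpow_one] at h5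
          have h6 := inv_injective h5
          rw [← h6]
          norm_cast
      refine ⟨σ ⟨a, ha⟩, σ ⟨b, hb⟩, c ⟨a, ha⟩, c ⟨b, hb⟩, hfl, hfr, ?_⟩
      have hcomm : ∀ t, σ ⟨a, ha⟩ (σ ⟨b, hb⟩ t) = σ ⟨b, hb⟩ (σ ⟨a, ha⟩ t) := by
        intro t
        rw [hfr, hfr, map_pow]
      have h5 := sigma_one hr h hSB hls hl hep (am_pow_eq heB 2) (am_pow_eq heC 2)
        (hfl.sq hab hs hcomm)
      intro t
      have h6 := congrArg (fun f : RingAut F => f t) h5
      change σ ⟨b, hb⟩ (σ ⟨a, ha⟩ t) = t at h6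
      rw [hfr, map_pow] at h6
      exact h6
  have key : ∀ f g : MulAut L, OutAut 2 f → OutAut 2 g →
      g ∈ zpowers f ⊔ (MulAut.conj (G := L)).range := by
    intro f g hf hg
    obtain ⟨e, hef, -, he⟩ := norm f hf
    obtain ⟨e', -, hge, he'⟩ := norm g hg
    set I := (MulAut.conj (G := L)).range with hI
    have hδI : e' * e⁻¹ ∈ I := by
      rcases he with ⟨σ, c, hc, hσ2, hσ1⟩ | ⟨σ, τ, c, d, hfl, hfr, hsq⟩
      · rcases he' with ⟨σ', c', hc', hσ2', hσ1'⟩ | ⟨σ', τ', c', d', hfl', hfr', hsq'⟩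
        · have hσσ : σ' = σ := by
            obtain ⟨m, -, hm, hmσ⟩ := ff_quad (r := 3) hσ1 hσ2
            obtain ⟨m', -, hm', hmσ'⟩ := ff_quad (r := 3) hσ1' hσ2'
            have h5 : m = m' := by
              apply Nat.pow_right_injective (le_refl 2 |>.trans (by norm_num : 2 ≤ 3))
              change 3 ^ m = 3 ^ m'
              have h6 : (3 ^ m) ^ 2 = (3 ^ m') ^ 2 := by rw [← hm, ← hm']
              exact Nat.pow_left_injective (n := 2) (by norm_num) h6
            ext t
            rw [hmσ, hmσ', h5]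
          have hδ : (e' * e⁻¹, (1 : RingAut F)) ∈ AG C x := by
            have h1 := mul_mem (show (e', σ') ∈ AG C x from ⟨c', hc'⟩)
              (inv_mem (show (e, σ) ∈ AG C x from ⟨c, hc⟩))
            have h2 : (e', σ') * (e, σ)⁻¹ = (e' * e⁻¹, (1 : RingAut F)) := by
              rw [Prod.ext_iff]
              refine ⟨rfl, ?_⟩
              change σ' * σ⁻¹ = 1
              rw [hσσ, mul_inv_cancel]
            rwa [h2] at h1
          obtain ⟨c'', hc''⟩ := hδ
          exact hinner hc''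
        · exact absurd (no_two hsq' hσ2) hσ1
      · rcases he' with ⟨σ', c', hc', hσ2', hσ1'⟩ | ⟨σ', τ', c', d', hfl', hfr', hsq'⟩
        · exact absurd (no_two hsq hσ2') hσ1'
        · have hττ : τ' = τ := by
            have h5 : (τ' * τ⁻¹) ^ 2 = 1 := by
              have hab' : ∀ σ τ : RingAut F, σ * τ = τ * σ := by
                intro σ τ
                obtain ⟨k, hk⟩ := ff_aut (r := 3) σ
                obtain ⟨m, hm⟩ := ff_aut (r := 3) τ
                ext t
                rw [RingAut.mul_apply, RingAut.mul_apply, hk, hm, hm, hk, ← pow_mul, ← pow_mul,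
                  mul_comm]
              have h6 : τ' ^ 2 = τ ^ 2 := by
                ext t
                have h7 := hsq t
                have h8 := hsq' t
                rw [← h8] at h7
                have h9 : τ (τ t) = τ' (τ' t) := by
                  have h10 : frobenius F 3 (τ (τ t)) = frobenius F 3 (τ' (τ' t)) := by
                    rw [frobenius_def, frobenius_def]
                    conv_lhs => rw [hsq t]
                    rw [hsq' t]
                  exact (frobenius F 3).injective h10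
                rw [pow_two, pow_two, RingAut.mul_apply, RingAut.mul_apply, h9]
              rw [pow_two, hab' τ' τ⁻¹, mul_assoc, ← mul_assoc τ' τ⁻¹ τ', hab' τ' τ⁻¹, mul_assoc τ⁻¹ τ' τ',
                ← pow_two τ', h6, pow_two, inv_mul_cancel_left, inv_mul_cancel]
            have h6 := no_two hsq h5
            exact mul_inv_eq_one.1 h6
          have hσσ : σ' = σ := by
            ext t
            rw [hfr, hfr', hττ]
          rw [hσσ, hττ] at hfl'
          exact hinner (hfl.div hab hs hfl')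
    have he'e : e' ∈ zpowers e ⊔ I := by
      have h1 : e' = (e' * e⁻¹) * e := by rw [inv_mul_cancel_right]
      rw [h1]
      exact mul_mem ((le_sup_right : I ≤ _) hδI)
        ((le_sup_left : zpowers e ≤ _) (mem_zpowers e))
    have h1 : zpowers e ⊔ I ≤ zpowers f ⊔ I :=
      sup_le (by rw [zpowers_le]; exact hef) le_sup_right
    have h2 : zpowers e' ⊔ I ≤ zpowers f ⊔ I :=
      sup_le (by rw [zpowers_le]; exact h1 he'e) le_sup_right
    exact h2 hge
  exact ⟨fun f g _ hf hg _ => Or.inl (key f g hf hg), Or.inl fun f g hf hg => key f g hf hg⟩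

end Vale.Agent.P240.R2.H986.X
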