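import Vale.Agent.P240.R2.H986.X.Defs
import Vale.Agent.P240.H195.CF

/-!
Literal statements for the groups given by Chevalley's relations.
-/

set_option autoImplicit false

namespace Vale.Agent.P240.R2.H986.X

open Subgroup Vale.Agent.P240.H195

universe u v w

section
variable {ι : Type*} {F : Type*} [Field F] {L : Type*} [Group L]

/-- `U` -/
def UU (C : RC ι) (x : ι → F → L) : Subgroup L := gr x (fun i => 0 < C.ht i)

/-- `U⁻` -/
def UM (C : RC ι) (x : ι → F → L) : Subgroup L := gr x (fun i => C.ht i < 0)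

/-- `T`, generated by the elements `h_i(t) = n_i(t) n_i(1)⁻¹` (all roots `i`) -/
def TT (C : RC ι) (x : ι → F → L) : Subgroup L :=
  closure {g | ∃ i t, t ≠ 0 ∧ g = nn C.neg x i t * (nn C.neg x i 1)⁻¹}

/-- `B = U T` -/
def BB (C : RC ι) (x : ι → F → L) : Subgroup L := UU C x ⊔ TT C x

/-- the representatives of the simple reflections -/
def SS (C : RC ι) (x : ι → F → L) : Set L := {g | ∃ i, C.simp i ∧ g = nn C.neg x i 1}

/-- `N` -/
def NN (C : RC ι) (x : ι → F → L) : Subgroup L := closure (SS C x) ⊔ TT C x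

end

/-- **X1** (Mathlib): the combinatorics of a root system. -/
def StmtX1 : Prop := ∀ (ι M N : Type) [AddCommGroup M] [Module ℚ M] [AddCommGroup N] [Module ℚ N]
  [Finite ι] (P : RootPairing ι ℚ M N) [P.IsCrystallographic] [P.IsReduced] (b : P.Base),
  b.support.Nonempty →
  (∀ p : ι → Prop, (∃ i, i ∈ b.support ∧ p i) →
    (∀ i j, i ∈ b.support → j ∈ b.support → p i → P.pairingIn ℤ j i ≠ 0 → p j) →
      ∀ j, j ∈ b.support → p j) →
  ∃ C : RC ι, C.ht = b.height ∧ (∀ i, C.neg i = P.reflectionPerm i i) ∧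
    (∀ i j, C.s i j = P.reflectionPerm i j) ∧ (∀ i, C.simp i ↔ i ∈ b.support) ∧
    (∀ i j, C.pr j i = P.pairingIn ℤ j i) ∧
    ∀ i j k, C.cone i j k ↔ ∃ m n : ℕ, 0 < m ∧ 0 < n ∧ P.root k = m • P.root i + n • P.root j

/-- **X2** (`U` is an `r`-group). -/
def StmtX2 : Prop := ∀ (ι : Type) [Finite ι] (F : Type) [Field F] [Finite F] (L : Type u) [Group L]
  [Finite L] (r : ℕ) [Fact r.Prime] [CharP F r] (C : RC ι) (x : ι → F → L), CS C x →
  IsPGroup r (UU C x)

/-- **X3** (the split BN-pair). -/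
def StmtX3 : Prop := ∀ (ι : Type) [Finite ι] (F : Type) [Field F] [Finite F] (L : Type u) [Group L]
  [Finite L] (r : ℕ) [Fact r.Prime] [CharP F r] (C : RC ι) (x : ι → F → L), CS C x →
  IsSimpleGroup L → (∀ g : L, (∀ y, g * y = y * g) → g = 1) →
  SplitBN r (BB C x) (NN C x) (UU C x) (SS C x)

open scoped Classical in
/-- **X4** (unimodular Cartan matrix, trivial automorphisms of the diagram): few automorphisms. -/
def StmtX4 : Prop := ∀ (ι : Type) [Finite ι] (F : Type) [Field F] [Finite F] (L : Type u) [Group L]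
  [Finite L] (r : ℕ) [Fact r.Prime] [CharP F r] (C : RC ι) (x : ι → F → L), CS C x →
  IsSimpleGroup L → (∀ g : L, (∀ y, g * y = y * g) → g = 1) →
  -- the Cartan matrix is invertible over the integers
  (∃ D : ι → ι → ℤ, ∃ Δ : Finset ι, (∀ i, i ∈ Δ ↔ C.simp i) ∧
    ∀ i j, C.simp i → C.simp j → ∑ k ∈ Δ, D i k * C.pr j k = if i = j then 1 else 0) →
  ∀ p : ℕ, p.Prime → p ≠ r →
  -- permutations of the diagram
  (∀ π : Equiv.Perm {i // C.simp i}, (∃ k, π ^ p ^ k = 1) →
    (∀ i j, C.pr i.1 j.1 = 0 ↔ C.pr (π i).1 (π j).1 = 0) →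
    ((r = 2 ∨ r = 3) ∨ ∀ i j, C.pr i.1 j.1 = C.pr (π i).1 (π j).1) → π = 1) →
  FewAut p L

/-- **X5** (rigid). -/
def StmtX5 : Prop := ∀ (ι : Type) [Finite ι] (F : Type) [Field F] [Finite F] (L : Type u) [Group L]
  [Finite L] (r : ℕ) [Fact r.Prime] [CharP F r] (C : RC ι) (x : ι → F → L), CS C x →
  IsSimpleGroup L → (∀ g : L, (∀ y, g * y = y * g) → g = 1) → RigidLie r L

end Vale.Agent.P240.R2.H986.X
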